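import Vale.Agent.P233.H339.LS
import Vale.Agent.P233.H589.Lat

/-!
# Lewy–Stampacchia with constants and a cut-off
-/

set_option linter.all false

open MeasureTheory Filter Topology
open scoped ENNReal NNReal InnerProductSpace

namespace Vale.Agent.P233

variable {M : Type*} [MeasurableSpace M] {m : Measure M} {C : Calc m}
variable {f g h k φ u η χ : M →ₘ[m] ℝ}

/-- a nonnegative function of `W` is the limit in `W` of nonnegative bounded functions -/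
theorem IsDir.exists_trunc_nonneg (hC : IsDir C) (hf : f ∈ C.W) (h0 : 0 ≤ f) :
    ∃ v : ℕ → M →ₘ[m] ℝ, (∀ n, v n ∈ C.A) ∧ (∀ n, 0 ≤ v n) ∧ (∀ n, v n ≤ f) ∧
      Tendsto (fun n => C.nrm2 (v n - f)) atTop (𝓝 0) := by
  set r : ℕ → M →ₘ[m] ℝ := fun n => (f - (n : ℝ) • (1 : M →ₘ[m] ℝ)) ⊔ 0 with hr
  have hrm : ∀ n, r n ∈ C.W := fun n => hC.posl_mem (Nat.cast_nonneg n) hf
  have hrae : ∀ n, ∀ᵐ x ∂m, r n x = max (f x - n) 0 := fun n => by
    filter_upwards [AEEqFun.coeFn_sup (f - (n : ℝ) • (1 : M →ₘ[m] ℝ)) 0,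
      sub_ae f ((n : ℝ) • (1 : M →ₘ[m] ℝ)), smul_ae (n : ℝ) (f := (1 : M →ₘ[m] ℝ)),
      one_ae (M := M) (m := m), zero_ae (M := M) (m := m)] with x a1 a2 a3 a4 a5
    show ((f - (n : ℝ) • (1 : M →ₘ[m] ℝ)) ⊔ 0 : M →ₘ[m] ℝ) x = _
    rw [a1, a2, a3, a4, a5, mul_one]
  have hlimr : ∀ᵐ x ∂m, ∀ᶠ n : ℕ in atTop, (f x : ℝ) ≤ n := by
    filter_upwards with x
    exact (tendsto_natCast_atTop_atTop (R := ℝ)).eventually_ge_atTop (f x)
  have hf2 := hC.memLp f hf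
  refine ⟨fun n => f - r n, fun n => ⟨hC.sub_mem hf (hrm n), ?_⟩, fun n => ?_, fun n => ?_, ?_⟩
  · rw [mem_top_iff]
    refine ⟨n, ?_⟩
    filter_upwards [sub_ae f (r n), hrae n, nonneg_iff_ae.1 h0] with x a1 a2 a3
    rw [a1, a2, abs_le]
    rcases le_total (f x - n) 0 with h | h
    · rw [max_eq_right h]
      constructor <;> linarith [(Nat.cast_nonneg n : (0 : ℝ) ≤ n)]
    · rw [max_eq_left h]
      constructor <;> linarith [(Nat.cast_nonneg n : (0 : ℝ) ≤ n)]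
  · rw [nonneg_iff_ae]
    filter_upwards [sub_ae f (r n), hrae n, nonneg_iff_ae.1 h0] with x a1 a2 a3
    rw [a1, a2]
    have : max (f x - n) 0 ≤ f x :=
      max_le (by linarith [(Nat.cast_nonneg n : (0 : ℝ) ≤ n)]) a3
    linarith
  · rw [le_iff_ae]
    filter_upwards [sub_ae f (r n), hrae n] with x a1 a2
    rw [a1, a2]
    linarith [le_max_right (f x - n) 0]
  · have e1 : ∀ n, C.nrm2 (f - r n - f) = I (r n ^ 2) + I (C.Γ (r n) (r n)) := fun n => by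
      rw [show f - r n - f = -r n by abel, hC.nrm2_neg (hrm n)]
      rfl
    simp only [e1]
    have l1 : Tendsto (fun n => I (r n ^ 2)) atTop (𝓝 (I (0 : M →ₘ[m] ℝ))) := by
      refine I_tendsto_of_dominated (G := fun x => f x ^ 2)
        ((int_of_mem (mem_sq hf2)).congr (sq_ae f)) (fun n => ?_) ?_
      · filter_upwards [sq_ae (r n), hrae n, nonneg_iff_ae.1 h0] with x a1 a2 a3
        rw [a1, a2, abs_of_nonneg (sq_nonneg _)]
        have h1 : max (f x - n) 0 ≤ f x :=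
          max_le (by linarith [(Nat.cast_nonneg n : (0 : ℝ) ≤ n)]) a3
        have h2 := le_max_right (f x - n) 0
        gcongr
      · filter_upwards [ae_all_iff.2 fun n => sq_ae (r n), ae_all_iff.2 hrae, hlimr,
          zero_ae (M := M) (m := m)] with x a1 a2 a3 a4
        simp_rw [a1, a2, a4]
        refine tendsto_const_nhds.congr' ?_
        filter_upwards [a3] with n hn
        rw [max_eq_right (by linarith)]; simp
    have hΓ : ∀ n, ∀ᵐ x ∂m, C.Γ (r n) (r n) x = if (n : ℝ) < f x then C.Γ f f x else 0 := fun n => by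
      filter_upwards [hC.Γ_posl (Nat.cast_nonneg n) hf (hrm n), hC.Γ_posl (Nat.cast_nonneg n) hf hf,
        eq_iff_ae.1 (hC.symm _ hf _ (hrm n))] with x a1 a2 a3
      show C.Γ ((f - (n : ℝ) • (1 : M →ₘ[m] ℝ)) ⊔ 0) (r n) x = _
      rw [a1, a3]
      show (if (n : ℝ) < f x then C.Γ ((f - (n : ℝ) • (1 : M →ₘ[m] ℝ)) ⊔ 0) f x else 0) = _
      rw [a2]
      split_ifs <;> rfl
    have l2 : Tendsto (fun n => I (C.Γ (r n) (r n))) atTop (𝓝 (I (0 : M →ₘ[m] ℝ))) := by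
      refine I_tendsto_of_dominated (G := fun x => C.Γ f f x) (int_of_mem (hC.mem1 f hf))
        (fun n => ?_) ?_
      · filter_upwards [hΓ n, hC.Γ_nonneg_ae hf] with x a1 a2
        rw [a1]
        split_ifs
        · rw [abs_of_nonneg a2]
        · rwa [abs_zero]
      · filter_upwards [ae_all_iff.2 hΓ, hlimr, zero_ae (M := M) (m := m)] with x a1 a3 a4
        simp_rw [a1, a4]
        refine tendsto_const_nhds.congr' ?_
        filter_upwards [a3] with n hn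
        rw [if_neg (not_lt.2 hn)]
    have := l1.add l2
    rw [I_zero, add_zero] at this
    exact this

/-- an inequality between `Γ(a,·)` and an `L²` function extends from bounded nonnegative functions
to all nonnegative functions of `W` -/
theorem IsDir.le_of_le_A (hC : IsDir C) {a K : M →ₘ[m] ℝ} (ha : a ∈ C.W) (hK : MemLp K 2 m)
    (H : ∀ g ∈ C.A, 0 ≤ g → I (C.Γ a g) ≤ I (K * g)) :
    ∀ g ∈ C.W, 0 ≤ g → I (C.Γ a g) ≤ I (K * g) := by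
  intro g hg h0
  obtain ⟨v, hv, hv0, -, hlim⟩ := hC.exists_trunc_nonneg hg h0
  have hvW : ∀ n, v n ∈ C.W := fun n => (hv n).1
  have e1 : ∀ n, I (C.Γ a (v n)) = I (C.Γ a g) + I (C.Γ a (v n - g)) := fun n => by
    rw [hC.Γ_sub_right ha (hvW n) hg, I_sub (hC.Γ_mem1 ha (hvW n)) (hC.Γ_mem1 ha hg)]; ring
  have e2 : ∀ n, I (K * v n) = I (K * g) + I (K * (v n - g)) := fun n => by
    rw [mul_sub, I_sub (mem_mul_22 hK (hC.memLp _ (hvW n))) (mem_mul_22 hK (hC.memLp _ hg))]; ring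
  have hb : ∀ n, I (C.Γ a g) ≤ I (K * g) +
      (√(I (C.Γ a a)) + √(I (K ^ 2))) * √(C.nrm2 (v n - g)) := by
    intro n
    have hd := hC.sub_mem (hvW n) hg
    have h1 := H _ (hv n) (hv0 n)
    rw [e1, e2] at h1
    have h2 := (abs_le.1 (hC.E_abs_le ha hd)).1
    have h3 := (abs_le.1 (I_abs_le hK (hC.memLp _ hd))).2
    have h4 : √(I (C.Γ (v n - g) (v n - g))) ≤ √(C.nrm2 (v n - g)) :=
      Real.sqrt_le_sqrt (IsDir.E_le_nrm2 hC _)
    have h5 : √(I ((v n - g) ^ 2)) ≤ √(C.nrm2 (v n - g)) :=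
      Real.sqrt_le_sqrt (hC.I_sq_le_nrm2 hd)
    have h6 := mul_le_mul_of_nonneg_left h4 (Real.sqrt_nonneg (I (C.Γ a a)))
    have h7 := mul_le_mul_of_nonneg_left h5 (Real.sqrt_nonneg (I (K ^ 2)))
    linarith
  have hz : Tendsto (fun n => √(C.nrm2 (v n - g))) atTop (𝓝 0) := by
    simpa [Function.comp_def] using (Real.continuous_sqrt.tendsto 0).comp hlim
  have hz2 : Tendsto (fun n => I (K * g) +
      (√(I (C.Γ a a)) + √(I (K ^ 2))) * √(C.nrm2 (v n - g))) atTop (𝓝 (I (K * g) +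
      (√(I (C.Γ a a)) + √(I (K ^ 2))) * 0)) := tendsto_const_nhds.add (hz.const_mul _)
  have := ge_of_tendsto' hz2 hb
  simpa using this

/-- localization of a weak bound by a cut-off -/
theorem IsDir.le_cut (hC : IsDir C) {a : M →ₘ[m] ℝ} {c : ℝ} (hc : 0 ≤ c) (ha : a ∈ C.W)
    (hχ : χ ∈ C.A) (hχ1 : MemLp χ 1 m) (hχ0 : 0 ≤ χ) (hcut : ∀ᵐ x ∂m, a x ≠ 0 → χ x = 1)
    (H : ∀ g ∈ C.A, 0 ≤ g → MemLp g 1 m → I (C.Γ a g) ≤ c * I g) :
    ∀ g ∈ C.W, 0 ≤ g → I (C.Γ a g) ≤ I ((c • χ) * g) := by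
  refine hC.le_of_le_A ha (mem_smul c (hC.memLp χ hχ.1)) fun g hg h0 => ?_
  have hχg : χ * g ∈ C.A := hC.mul_mem_A hχ hg
  have h1 : MemLp (χ * g : M →ₘ[m] ℝ) 1 m := mem_top_mul hχ1 hg.2
  have h2 : 0 ≤ χ * g := by
    rw [nonneg_iff_ae]
    filter_upwards [mul_ae χ g, nonneg_iff_ae.1 hχ0, nonneg_iff_ae.1 h0] with x a1 a2 a3
    rw [a1]; exact mul_nonneg a2 a3
  have h3 := H _ hχg h2 h1
  have h4 : C.Γ a (χ * g) = C.Γ a g := by
    rw [eq_iff_ae, hC.Γ_mul_right hχ hg ha]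
    filter_upwards [add_ae (χ * C.Γ a g) (g * C.Γ a χ), mul_ae χ (C.Γ a g), mul_ae g (C.Γ a χ),
      hcut, hC.Γ_ae_zero ha hg.1, hC.Γ_ae_zero ha hχ.1, hC.Γ_level hχ.1 ha 1,
      eq_iff_ae.1 (hC.symm _ ha _ hχ.1)] with x a1 a2 a3 a4 a5 a6 a7 a8
    rw [a1, a2, a3]
    by_cases h : a x = 0
    · rw [a5 h, a6 h]; ring
    · rw [a8, a7 (a4 h), a4 h]; ring
  rw [h4] at h3
  rw [smul_mul_assoc, I_smul]
  exact h3

/-- **Lewy–Stampacchia** with constants and a cut-off: `φ ≤ u`, `Δφ ≥ -c` and `Δu ≤ c` weakly,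
`χ = 1` where `φ` or `u` does not vanish. -/
theorem IsDir.ls_cut (hC : IsDir C) [SigmaFinite m] {c : ℝ} (hc : 0 ≤ c) (hφ : φ ∈ C.A)
    (hu : u ∈ C.A) (hle : φ ≤ u) (hχ : χ ∈ C.A) (hχ1 : MemLp χ 1 m) (hχ0 : 0 ≤ χ)
    (hcut : ∀ᵐ x ∂m, (φ x ≠ 0 ∨ u x ≠ 0) → χ x = 1)
    (h1 : ∀ g ∈ C.A, 0 ≤ g → MemLp g 1 m → I (C.Γ φ g) ≤ c * I g)
    (h2 : ∀ g ∈ C.A, 0 ≤ g → MemLp g 1 m → -I (C.Γ u g) ≤ c * I g) :
    ∃ η h : M →ₘ[m] ℝ, C.IsLap η h ∧ φ ≤ η ∧ η ≤ u ∧ MemLp η ∞ m ∧ MemLp h ∞ m ∧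
      MemLp η 1 m ∧ MemLp h 1 m ∧
      (∀ᵐ x ∂m, |h x| ≤ c * χ x + 2 * (|φ x| + |u x|)) ∧
      (∀ᵐ x ∂m, χ x = 0 → η x = 0 ∧ h x = 0) ∧
      ∀ g ∈ C.W, ∀ᵐ x ∂m, φ x = u x → C.Γ η g x = C.Γ u g x ∧ C.Γ η g x = C.Γ φ g x := by
  have hK : MemLp (c • χ : M →ₘ[m] ℝ) 2 m := mem_smul c (hC.memLp χ hχ.1)
  have hK0 : 0 ≤ c • χ := smul_nonneg' hc hχ0
  have hneg : ∀ g ∈ C.W, 0 ≤ g → -I (C.Γ u g) ≤ I ((c • χ) * g) := by
    intro g hg h0
    have e : ∀ g ∈ C.W, I (C.Γ (-u) g) = -I (C.Γ u g) := fun g hg => by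
      rw [hC.Γ_neg_left hu.1 hg, I_neg]
    rw [← e g hg]
    refine hC.le_cut (a := -u) hc (hC.neg_mem hu.1) hχ hχ1 hχ0 ?_ (fun g hg h0 h1' => ?_) g hg h0
    · filter_upwards [hcut, neg_ae u] with x a1 a2 a3
      rw [a2] at a3
      exact a1 (Or.inr (by simpa using a3))
    · rw [e g hg.1]; exact h2 g hg h0 h1'
  obtain ⟨η, h, hlap, l1, l2, l3⟩ := hC.lewy_stampacchia hφ.1 hu.1 hle hK hK0
    (hC.le_cut hc hφ.1 hχ hχ1 hχ0 (by filter_upwards [hcut] with x a1 a2 using a1 (Or.inl a2)) h1)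
    hneg
  have hh : ∀ᵐ x ∂m, |h x| ≤ c * χ x + 2 * (|φ x| + |u x|) := by
    filter_upwards [l3, smul_ae χ c] with x a1 a2
    rwa [a2] at a1
  have hη : ∀ᵐ x ∂m, |η x| ≤ |φ x| + |u x| := by
    filter_upwards [le_iff_ae.1 l1, le_iff_ae.1 l2] with x a1 a2
    rw [abs_le]
    constructor
    · linarith [neg_abs_le (φ x), abs_nonneg (u x)]
    · linarith [le_abs_self (u x), abs_nonneg (φ x)]
  obtain ⟨A, hA⟩ := mem_top_iff.1 hφ.2
  obtain ⟨B, hB⟩ := mem_top_iff.1 hu.2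
  obtain ⟨D, hD⟩ := mem_top_iff.1 hχ.2
  -- both are bounded by a multiple of `χ`
  have hsmall : ∀ᵐ x ∂m, |φ x| + |u x| ≤ (A + B) * χ x := by
    filter_upwards [hcut, hA, hB, nonneg_iff_ae.1 hχ0] with x a1 a2 a3 a4
    by_cases hx : φ x ≠ 0 ∨ u x ≠ 0
    · rw [a1 hx]; linarith
    · push Not at hx
      rw [hx.1, hx.2]
      have : 0 ≤ A + B := by linarith [abs_nonneg (φ x), abs_nonneg (u x)]
      simp only [abs_zero, add_zero]
      positivity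
  have hηχ : ∀ᵐ x ∂m, |η x| ≤ |((A + B) • χ : M →ₘ[m] ℝ) x| := by
    filter_upwards [hη, hsmall, smul_ae χ (A + B)] with x a1 a2 a3
    rw [a3]; exact (a1.trans a2).trans (le_abs_self _)
  have hhχ : ∀ᵐ x ∂m, |h x| ≤ |((c + 2 * (A + B)) • χ : M →ₘ[m] ℝ) x| := by
    filter_upwards [hh, hsmall, smul_ae χ (c + 2 * (A + B))] with x a1 a2 a3
    rw [a3]
    refine le_trans ?_ (le_abs_self _)
    linarith
  refine ⟨η, h, hlap, l1, l2, mem_of_le (mem_smul _ hχ.2) hηχ, mem_of_le (mem_smul _ hχ.2) hhχ,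
    mem_of_le (mem_smul _ hχ1) hηχ, mem_of_le (mem_smul _ hχ1) hhχ, hh, ?_, fun g hg => ?_⟩
  · filter_upwards [hηχ, hhχ, smul_ae χ (A + B), smul_ae χ (c + 2 * (A + B))] with x a1 a2 a3 a4 a5
    rw [a3, a5, mul_zero, abs_zero] at a1
    rw [a4, a5, mul_zero, abs_zero] at a2
    exact ⟨abs_nonpos_iff.1 a1, abs_nonpos_iff.1 a2⟩
  · filter_upwards [hC.Γ_eq_on hlap.1 hu.1 hg, hC.Γ_eq_on hlap.1 hφ.1 hg, le_iff_ae.1 l1,
      le_iff_ae.1 l2] with x a1 a2 a3 a4 a5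
    exact ⟨a1 (le_antisymm a4 (by rw [← a5]; exact a3)), a2 (le_antisymm (by rw [a5]; exact a4) a3)⟩

end Vale.Agent.P233
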