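import Vale.Agent.P233.H339.CY3
import Mathlib.MeasureTheory.Function.ContinuousMapDense

/-!
# RCDA, block H4: the Cheeger–Yau comparison `K̂_s ≤ p_s`
-/

set_option linter.all false

open MeasureTheory Filter Topology Set
open scoped ENNReal NNReal InnerProductSpace

universe u

namespace Vale.Agent.P233

namespace H339

open RA

variable {M : Type u} [MetricSpace M] [MeasurableSpace M] [BorelSpace M] {m : Measure M}
variable {K θ δ s T A R : ℝ} {n : ℕ}

theorem locFin (h : NSp m n K θ) : IsLocallyFiniteMeasure m :=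
  ⟨fun x => ⟨Metric.ball x 1, Metric.ball_mem_nhds x one_pos, h.fin x 1⟩⟩

/-- the kernel applied to `u` -/
noncomputable def UU (m : Measure M) (n : ℕ) (K A δ s : ℝ) (u : M → ℝ) (x : M) : ℝ :=
  ∫ y, u y * kt n K A δ s (gg x y) ∂m

/-- `u` is nonnegative, continuous and vanishes outside `ball x₀ R` -/
structure TF (x₀ : M) (R : ℝ) (u : M → ℝ) : Prop where
  cont : Continuous u
  nonneg : ∀ x, 0 ≤ u x
  supp : ∀ x, x ∉ Metric.ball x₀ R → u x = 0
  bdd : ∃ B : ℝ, ∀ x, |u x| ≤ B

variable {x₀ : M} {u v : M → ℝ}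

theorem TF.mem (h : TF x₀ R u) (hfin : ∀ (x : M) (r : ℝ), m (Metric.ball x r) < ∞) (p : ℝ≥0∞) :
    MemLp (cl m u) p m := by
  obtain ⟨B, hB⟩ := h.bdd
  refine memLp_of_bound (D := Metric.ball x₀ R) Metric.isOpen_ball.measurableSet (hfin _ _) (L := B) ?_ ?_
  · filter_upwards [H183.cl_cont (m := m) h.cont] with x hx _
    rw [hx]; exact hB x
  · filter_upwards [H183.cl_cont (m := m) h.cont] with x hx h2
    rw [hx]; exact h.supp x h2

theorem TF.class_nonneg (h : TF x₀ R u) : 0 ≤ cl m u := by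
  rw [nonneg_iff_ae]
  filter_upwards [H183.cl_cont (m := m) h.cont] with x hx
  rw [hx]; exact h.nonneg x

section

variable [SecondCountableTopology M]

theorem UU_meas [SFinite m] (hu : Continuous u) : StronglyMeasurable (UU m n K A δ s u) := by
  have h1 : StronglyMeasurable (Function.uncurry fun x y : M => u y * kt n K A δ s (gg x y)) := by
    have : Continuous (Function.uncurry fun x y : M => u y * kt n K A δ s (gg x y)) :=
      (hu.comp continuous_snd).mul (continuous_kt2 n K A δ s)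
    exact this.stronglyMeasurable
  exact h1.integral_prod_right

omit [SecondCountableTopology M] in
theorem UU_supp (hδ : 0 < δ) (h : TF x₀ R u) {x : M} (hx : x ∉ Metric.ball x₀ (R + √(2 * δ))) :
    UU m n K A δ s u x = 0 := by
  unfold UU
  have : ∀ y, u y * kt n K A δ s (gg x y) = 0 := by
    intro y
    by_cases hy : y ∈ Metric.ball x₀ R
    · have h1 : y ∉ Metric.ball x √(2 * δ) := by
        intro h2
        apply hx
        rw [Metric.mem_ball] at *
        have := dist_triangle x y x₀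
        rw [dist_comm x y] at this
        linarith
      rw [kt_supp hδ h1, mul_zero]
    · rw [h.supp y hy, zero_mul]
  simp only [this, integral_zero]

omit [SecondCountableTopology M] in
theorem kt_bdd (n : ℕ) (K A s : ℝ) (hδ : 0 < δ) : ∃ L : ℝ, 0 ≤ L ∧ ∀ t : ℝ, 0 ≤ t → |kt n K A δ s t| ≤ L := by
  obtain ⟨L, hL⟩ := (isCompact_Icc (a := (0 : ℝ)) (b := δ)).exists_bound_of_continuousOn
    (continuous_kt n K A δ s).continuousOn
  refine ⟨max L 0, le_max_right _ _, fun t ht => ?_⟩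
  rcases le_total t δ with h1 | h1
  · exact (hL t ⟨ht, h1⟩).trans (le_max_left _ _)
  · rw [kt_eq_zero h1, abs_zero]; exact le_max_right _ _

/-- integrability on the product -/
theorem F_int [SFinite m] (hfin : ∀ (x : M) (r : ℝ), m (Metric.ball x r) < ∞) (hδ : 0 < δ) (h : TF x₀ R u)
    {φ : M →ₘ[m] ℝ} (hφ : MemLp φ 2 m) :
    Integrable (fun p : M × M => u p.1 * kt n K A δ s (gg p.1 p.2) * φ p.2) (m.prod m) := by
  obtain ⟨B, hB⟩ := h.bdd
  obtain ⟨L, hL0, hL⟩ := kt_bdd n K A s hδ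
  have i1 : Integrable ((Metric.ball x₀ R).indicator fun _ => B) m := by
    have : Fact (m (Metric.ball x₀ R) < ∞) := ⟨hfin _ _⟩
    exact (integrable_indicator_iff Metric.isOpen_ball.measurableSet).2 (integrable_const _)
  have i2 : Integrable ((Metric.ball x₀ (R + √(2 * δ))).indicator fun y => L * |φ y|) m := by
    have : Fact (m (Metric.ball x₀ (R + √(2 * δ))) < ∞) := ⟨hfin _ _⟩
    refine (integrable_indicator_iff Metric.isOpen_ball.measurableSet).2 ?_
    exact ((hφ.restrict _).integrable (by norm_num)).abs.const_mul L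
  refine (i1.mul_prod i2).mono' ?_ (Eventually.of_forall fun p => ?_)
  · refine AEStronglyMeasurable.mul ?_ ?_
    · exact ((h.cont.comp continuous_fst).mul (continuous_kt2 n K A δ s)).aestronglyMeasurable
    · exact (φ.measurable.comp measurable_snd).aestronglyMeasurable
  · rw [norm_mul, norm_mul, Real.norm_eq_abs, Real.norm_eq_abs, Real.norm_eq_abs]
    by_cases h1 : p.1 ∈ Metric.ball x₀ R
    · rw [Set.indicator_of_mem h1]
      by_cases h2 : p.2 ∈ Metric.ball x₀ (R + √(2 * δ))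
      · rw [Set.indicator_of_mem h2]
        calc |u p.1| * |kt n K A δ s (gg p.1 p.2)| * |φ p.2| ≤ B * L * |φ p.2| := by
              refine mul_le_mul_of_nonneg_right ?_ (abs_nonneg _)
              exact mul_le_mul (hB _) (hL _ (gg_nonneg _ _)) (abs_nonneg _) ((abs_nonneg _).trans (hB p.1))
          _ = B * (L * |φ p.2|) := by ring
      · rw [Set.indicator_of_notMem h2, mul_zero]
        have h3 : p.2 ∉ Metric.ball p.1 √(2 * δ) := by
          intro h4
          apply h2
          rw [Metric.mem_ball] at *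
          linarith [dist_triangle p.2 p.1 x₀]
        rw [kt_supp hδ h3]; simp
    · rw [Set.indicator_of_notMem h1, h.supp _ h1]; simp

/-- the kernel is an approximate identity, in `L²` -/
theorem UU_tendsto (h : NSp m n K θ) (hδ : 0 < δ) (hu : TF x₀ R u) :
    (∀ s, MemLp (cl m (UU m n K (ga n θ) δ s u)) 2 m) ∧
    Tendsto (fun s => I ((cl m (UU m n K (ga n θ) δ s u) - cl m u) ^ 2)) (𝓝[>] 0) (𝓝 0) := by
  haveI := locFin h
  obtain ⟨B, hB⟩ := hu.bdd
  have hB0 : 0 ≤ B := (abs_nonneg _).trans (hB x₀)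
  have hA := H866.ga_pos (n := n) h.θ_pos
  set D := Metric.ball x₀ (R + √(2 * δ)) with hD
  have hDm : MeasurableSet D := Metric.isOpen_ball.measurableSet
  have hDf : m D < ∞ := h.fin _ _
  have hcl : ∀ s, ∀ᵐ x ∂m, cl m (UU m n K (ga n θ) δ s u) x = UU m n K (ga n θ) δ s u x := fun s =>
    H183.cl_ae (UU_meas hu.cont).aestronglyMeasurable
  have hmem : ∀ s, MemLp (cl m (UU m n K (ga n θ) δ s u)) 2 m := by
    intro s
    obtain ⟨L, hL0, hL⟩ := kt_bdd n K (ga n θ) s hδ
    refine memLp_of_bound hDm hDf (L := B * L * m.real (Metric.ball x₀ R)) ?_ ?_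
    · filter_upwards [hcl s] with x hx hxD
      rw [hx]
      unfold UU
      have hfac : Fact (m (Metric.ball x₀ R) < ∞) := ⟨h.fin _ _⟩
      have e1 : ∫ y, (Metric.ball x₀ R).indicator (fun _ => B * L) y ∂m = B * L * m.real (Metric.ball x₀ R) := by
        rw [integral_indicator Metric.isOpen_ball.measurableSet, setIntegral_const, smul_eq_mul, mul_comm]
      rw [← e1, ← Real.norm_eq_abs]
      refine norm_integral_le_of_norm_le
        ((integrable_indicator_iff Metric.isOpen_ball.measurableSet).2 (integrable_const _))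
        (Eventually.of_forall fun y => ?_)
      by_cases hy : y ∈ Metric.ball x₀ R
      · rw [Set.indicator_of_mem hy, norm_mul]
        exact mul_le_mul (hB y) (hL _ (gg_nonneg _ _)) (norm_nonneg _) hB0
      · rw [Set.indicator_of_notMem hy, hu.supp y hy]; simp
    · filter_upwards [hcl s] with x hx hxD
      rw [hx]; exact UU_supp hδ hu hxD
  refine ⟨hmem, ?_⟩
  obtain ⟨Bm, hBm0, hBm⟩ := mass_bound h hδ x₀ (R + √(2 * δ))
  have hev : ∀ᶠ s in 𝓝[>] (0 : ℝ), 0 < s ∧ s ≤ 1 := by
    filter_upwards [self_mem_nhdsWithin, nhdsWithin_le_nhds (eventually_le_nhds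
      (zero_lt_one' ℝ))] with s h1 h2
    exact ⟨h1, h2⟩
  have key : ∀ s, I ((cl m (UU m n K (ga n θ) δ s u) - cl m u) ^ 2)
      = ∫ x, (UU m n K (ga n θ) δ s u x - u x) ^ 2 ∂m := by
    intro s
    unfold I
    refine integral_congr_ae ?_
    filter_upwards [sq_ae (cl m (UU m n K (ga n θ) δ s u) - cl m u),
      sub_ae (cl m (UU m n K (ga n θ) δ s u)) (cl m u), hcl s, H183.cl_cont (m := m) hu.cont] with x a1 a2 a3 a4
    rw [a1, a2, a3, a4]
  simp_rw [key]
  have hfac : Fact (m D < ∞) := ⟨hDf⟩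
  suffices hs : Tendsto (fun s => ∫ x, (UU m n K (ga n θ) δ s u x - u x) ^ 2 ∂m) (𝓝[>] 0)
      (𝓝 (∫ x : M, (0 : ℝ) ∂m)) by simpa using hs
  refine tendsto_integral_filter_of_dominated_convergence (D.indicator fun _ => (B * Bm + B) ^ 2) ?_ ?_
    ((integrable_indicator_iff hDm).2 (integrable_const _)) ?_
  · refine Eventually.of_forall fun s => ?_
    exact (((UU_meas hu.cont).measurable.sub hu.cont.measurable).pow_const 2).aestronglyMeasurable
  · filter_upwards [hev] with s hs
    refine Eventually.of_forall fun x => ?_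
    by_cases hx : x ∈ D
    · rw [Set.indicator_of_mem hx, Real.norm_eq_abs, abs_pow]
      refine pow_le_pow_left₀ (abs_nonneg _) ?_ 2
      refine (abs_sub _ _).trans (add_le_add ?_ (hB x))
      have h1 : B * ∫ y, kt n K (ga n θ) δ s (gg x y) ∂m ≤ B * Bm :=
        mul_le_mul_of_nonneg_left (hBm s hs.1 hs.2 x hx) hB0
      refine le_trans ?_ h1
      rw [← integral_const_mul]
      unfold UU
      rw [← Real.norm_eq_abs]
      refine norm_integral_le_of_norm_le ((int_kt h.fin hδ x).1.const_mul B) (Eventually.of_forall fun y => ?_)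
      rw [norm_mul, Real.norm_eq_abs, Real.norm_eq_abs, abs_of_nonneg (kt_nonneg hA hs.1 _)]
      exact mul_le_mul_of_nonneg_right (hB y) (kt_nonneg hA hs.1 _)
    · have hx2 : x ∉ Metric.ball x₀ R := fun h9 => hx (Metric.ball_subset_ball
        (by linarith [Real.sqrt_nonneg (2 * δ)]) h9)
      rw [Set.indicator_of_notMem hx, UU_supp hδ hu hx, hu.supp x hx2]
      simp
  · filter_upwards [h.dens] with x hx
    have h1 := ((U_lim h hδ hx hu.cont hB).sub_const (u x)).pow 2
    rw [sub_self, zero_pow two_ne_zero] at h1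
    exact h1

/-- the inequality for the truncated kernel -/
theorem main_delta (h : NSp m n K θ) (hT : 0 < T) (hT1 : T ≤ 1) (hu : TF x₀ R u) {R' : ℝ} (hv : TF x₀ R' v)
    (hδ : 0 < δ) :
    Integrable (fun p : M × M => u p.1 * kt n K (ga n θ) δ T (gg p.1 p.2) * v p.2) (m.prod m) ∧
    ∫ p, u p.1 * kt n K (ga n θ) δ T (gg p.1 p.2) * v p.2 ∂(m.prod m)
      ≤ I (cl m u * Q m T (cl m v)) + ke n K (ga n θ) δ * (I (cl m v) * T * I (cl m u)) := by
  haveI := locFin h
  have hC := h.isDir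
  have hA := H866.ga_pos (n := n) h.θ_pos
  set f := cl m v with hf
  have hf2 : MemLp f 2 m := hv.mem h.fin 2
  have hf1 : MemLp f 1 m := hv.mem h.fin 1
  have hft : MemLp f ∞ m := hv.mem h.fin ∞
  have hf0 : 0 ≤ f := hv.class_nonneg
  set φ : ℝ → M →ₘ[m] ℝ := fun r => (sob m).P ((T - r) / 2) f with hφ
  have hφ2 : ∀ r, MemLp (φ r) 2 m := fun r => hC.P_mem2 _ hf2
  have hφT : φ T = f := by rw [hφ]; simp only [sub_self, zero_div]; exact hC.P_zero_time hf2
  have hcu : ∀ᵐ x ∂m, cl m u x = u x := H183.cl_cont hu.cont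
  have hcv : ∀ᵐ x ∂m, f x = v x := H183.cl_cont hv.cont
  -- `G r = ∫∫ u k φ`
  have hF : ∀ r, Integrable (fun p : M × M => u p.1 * kt n K (ga n θ) δ r (gg p.1 p.2) * φ r p.2) (m.prod m) :=
    fun r => F_int h.fin hδ hu (hφ2 r)
  have hFT : (fun p : M × M => u p.1 * kt n K (ga n θ) δ T (gg p.1 p.2) * v p.2)
      =ᵐ[m.prod m] (fun p : M × M => u p.1 * kt n K (ga n θ) δ T (gg p.1 p.2) * φ T p.2) := by
    rw [hφT]
    have := Measure.quasiMeasurePreserving_snd (μ := m) (ν := m) |>.ae hcv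
    filter_upwards [this] with p hp
    rw [hp]
  refine ⟨(hF T).congr hFT.symm, ?_⟩
  rw [integral_congr_ae hFT]
  have e1 : ∀ r, ∫ p, u p.1 * kt n K (ga n θ) δ r (gg p.1 p.2) * φ r p.2 ∂(m.prod m)
      = ∫ x, u x * I (kk (continuous_gg x).measurable m n K (ga n θ) δ r * φ r) ∂m := by
    intro r
    rw [integral_prod _ (hF r)]
    refine integral_congr_ae (Eventually.of_forall fun x => ?_)
    simp only
    unfold I
    rw [← integral_const_mul]
    refine integral_congr_ae ?_
    filter_upwards [mul_ae (kk (continuous_gg x).measurable m n K (ga n θ) δ r) (φ r),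
      kk_ae (m := m) (n := n) (K := K) (A := ga n θ) (δ := δ) (s := r) (continuous_gg x).measurable] with y h1 h2
    rw [h1, h2]; ring
  have e1i : ∀ r, Integrable (fun x => u x * I (kk (continuous_gg x).measurable m n K (ga n θ) δ r * φ r)) m := by
    intro r
    refine ((hF r).integral_prod_left).congr (Eventually.of_forall fun x => ?_)
    simp only
    unfold I
    rw [← integral_const_mul]
    refine integral_congr_ae ?_
    filter_upwards [mul_ae (kk (continuous_gg x).measurable m n K (ga n θ) δ r) (φ r),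
      kk_ae (m := m) (n := n) (K := K) (A := ga n θ) (δ := δ) (s := r) (continuous_gg x).measurable] with y h1 h2
    rw [h1, h2]; ring
  have e2 : ∀ r, ∫ p, u p.1 * kt n K (ga n θ) δ r (gg p.1 p.2) * φ r p.2 ∂(m.prod m)
      = I (cl m (UU m n K (ga n θ) δ r u) * φ r) := by
    intro r
    rw [integral_prod_symm _ (hF r)]
    unfold I
    refine integral_congr_ae ?_
    filter_upwards [mul_ae (cl m (UU m n K (ga n θ) δ r u)) (φ r),
      H183.cl_ae (UU_meas (m := m) (n := n) (K := K) (A := ga n θ) (δ := δ) (s := r) hu.cont).aestronglyMeasurable]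
      with y h1 h2
    rw [h1, h2]
    unfold UU
    rw [← integral_mul_const]
    refine integral_congr_ae (Eventually.of_forall fun x => ?_)
    simp only
    rw [gg_comm y x]
  obtain ⟨hmem, hlim⟩ := UU_tendsto h hδ hu
  have hlim2 : Tendsto (fun r => I ((φ r - φ 0) ^ 2)) (𝓝[>] 0) (𝓝 0) := by
    have h1 := hC.P_cont hf2 ((T - 0) / 2)
    have h2 : Tendsto (fun r : ℝ => (T - r) / 2) (𝓝[>] 0) (𝓝 ((T - 0) / 2)) :=
      (Continuous.tendsto (by fun_prop) 0).mono_left nhdsWithin_le_nhds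
    exact h1.comp h2
  have hlim3 := tendsto_I_mul hmem (hu.mem h.fin 2) hφ2 (hφ2 0) hlim hlim2
  have hQ : φ 0 = Q m T f := by rw [hφ]; simp only [sub_zero]; rfl
  rw [hQ] at hlim3
  refine ge_of_tendsto (hlim3.add_const (ke n K (ga n θ) δ * (I f * T * I (cl m u)))) ?_
  have hev : ∀ᶠ r in 𝓝[>] (0 : ℝ), 0 < r ∧ r ≤ T := by
    filter_upwards [self_mem_nhdsWithin, nhdsWithin_le_nhds (eventually_le_nhds hT)] with r h1 h2
    exact ⟨h1, h2⟩
  filter_upwards [hev] with r hr
  rw [← e2 r, e1 r, e1 T]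
  have iu : Integrable (fun x => u x) m := (int_of_mem (hu.mem h.fin 1)).congr hcu
  have e3 : I (cl m u) = ∫ x, u x ∂m := integral_congr_ae hcu
  rw [e3, ← integral_const_mul, ← integral_const_mul, ← integral_add (e1i r) ((iu.const_mul _).const_mul _)]
  refine integral_mono (e1i T) ((e1i r).add ((iu.const_mul _).const_mul _)) fun x => ?_
  simp only
  have hm := H_anti (T := T) hC (lc_of h hδ x) hA hT1 hf2 hft hf1 hf0 (a := r) hr (b := T) ⟨hT, le_rfl⟩ hr.2
  simp only at hm
  have hI0 : 0 ≤ ke n K (ga n θ) δ * I f * r :=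
    mul_nonneg (mul_nonneg (ke_nonneg hA hδ) (I_nonneg hf0)) hr.1.le
  have h1 : I (kk (continuous_gg x).measurable m n K (ga n θ) δ T * φ T)
      ≤ I (kk (continuous_gg x).measurable m n K (ga n θ) δ r * φ r) + ke n K (ga n θ) δ * I f * T := by
    have : I (kk (lc_of h hδ x).meas m n K (ga n θ) δ T * (sob m).P ((T - T) / 2) f)
      - ke n K (ga n θ) δ * I f * T ≤ I (kk (lc_of h hδ x).meas m n K (ga n θ) δ r * (sob m).P ((T - r) / 2) f)
      - ke n K (ga n θ) δ * I f * r := hm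
    have e4 : φ T = (sob m).P ((T - T) / 2) f := rfl
    have e5 : φ r = (sob m).P ((T - r) / 2) f := rfl
    rw [e4, e5]
    linarith
  have h2 := mul_le_mul_of_nonneg_left h1 (hu.nonneg x)
  linarith

/-- the inequality for test functions -/
theorem base (h : NSp m n K θ) (hT : 0 < T) (hT1 : T ≤ 1) (hu : TF x₀ R u) {R' : ℝ} (hv : TF x₀ R' v) :
    ∫⁻ p, ENNReal.ofReal (u p.1 * KH n K θ T p.1 p.2 * v p.2) ∂(m.prod m)
      ≤ ENNReal.ofReal (I (cl m u * Q m T (cl m v))) := by
  have hA := H866.ga_pos (n := n) h.θ_pos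
  set F : ℕ → M × M → ℝ := fun k p => u p.1 * kt n K (ga n θ) ((k : ℝ) + 1) T (gg p.1 p.2) * v p.2 with hF
  have hFm : ∀ k, Measurable fun p => ENNReal.ofReal (F k p) := by
    intro k
    refine ENNReal.measurable_ofReal.comp (Continuous.measurable ?_)
    exact ((hu.cont.comp continuous_fst).mul (continuous_kt2 n K _ _ T)).mul (hv.cont.comp continuous_snd)
  have hk1 : Tendsto (fun k : ℕ => (k : ℝ) + 1) atTop atTop :=
    tendsto_atTop_add_const_right _ _ tendsto_natCast_atTop_atTop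
  have hlim : ∀ p, Tendsto (fun k => ENNReal.ofReal (F k p)) atTop
      (𝓝 (ENNReal.ofReal (u p.1 * KH n K θ T p.1 p.2 * v p.2))) := by
    intro p
    refine ENNReal.tendsto_ofReal ((Tendsto.mul_const _ (Tendsto.const_mul _ ?_)))
    rw [KH_eq]
    have h1 : Tendsto (fun t : ℝ => kg n K (ga n θ) T t) atTop (𝓝 0) := by
      unfold kg
      have ha := ca_pos (K := K) hT
      have b1 : Tendsto (fun t : ℝ => ca K T * t) atTop atTop := tendsto_id.const_mul_atTop ha
      have b2 : Tendsto (fun t : ℝ => -(ca K T * t) - cb n K * T) atTop atBot :=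
        tendsto_atBot_add_const_right _ _ (tendsto_neg_atTop_atBot.comp b1)
      have b3 := (Real.tendsto_exp_atBot.comp b2).const_mul ((ga n θ)⁻¹ * T ^ (-((n : ℝ) / 2)))
      rw [mul_zero] at b3
      exact b3
    have h2 : ∀ᶠ k : ℕ in atTop, min (gg p.1 p.2) ((k : ℝ) + 1) = gg p.1 p.2 := by
      filter_upwards [hk1.eventually_ge_atTop (gg p.1 p.2)] with k hk
      exact min_eq_left hk
    have h3 : Tendsto (fun k : ℕ => kg n K (ga n θ) T (gg p.1 p.2) - kg n K (ga n θ) T ((k : ℝ) + 1)) atTop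
        (𝓝 (kg n K (ga n θ) T (gg p.1 p.2) - 0)) := (h1.comp hk1).const_sub _
    rw [sub_zero] at h3
    refine h3.congr' ?_
    filter_upwards [h2] with k hk
    unfold kt
    rw [hk]
  have hle : ∀ k, ∫⁻ p, ENNReal.ofReal (F k p) ∂(m.prod m) ≤ ENNReal.ofReal (I (cl m u * Q m T (cl m v))
      + ke n K (ga n θ) ((k : ℝ) + 1) * (I (cl m v) * T * I (cl m u))) := by
    intro k
    obtain ⟨a1, a2⟩ := main_delta h hT hT1 hu hv (δ := (k : ℝ) + 1) (by positivity)
    rw [← ofReal_integral_eq_lintegral_ofReal a1 (Eventually.of_forall fun p => ?_)]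
    · exact ENNReal.ofReal_le_ofReal a2
    · exact mul_nonneg (mul_nonneg (hu.nonneg _) (kt_nonneg hA hT _)) (hv.nonneg _)
  have hke : Tendsto (fun k : ℕ => ENNReal.ofReal (I (cl m u * Q m T (cl m v))
      + ke n K (ga n θ) ((k : ℝ) + 1) * (I (cl m v) * T * I (cl m u)))) atTop
      (𝓝 (ENNReal.ofReal (I (cl m u * Q m T (cl m v))))) := by
    have h1 := ((ke_tendsto n K (ga n θ)).comp hk1).mul_const (I (cl m v) * T * I (cl m u))
    have h2 := h1.const_add (I (cl m u * Q m T (cl m v)))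
    rw [zero_mul, add_zero] at h2
    exact ENNReal.tendsto_ofReal h2
  calc ∫⁻ p, ENNReal.ofReal (u p.1 * KH n K θ T p.1 p.2 * v p.2) ∂(m.prod m)
      = ∫⁻ p, liminf (fun k => ENNReal.ofReal (F k p)) atTop ∂(m.prod m) := by
        refine lintegral_congr fun p => ?_
        rw [(hlim p).liminf_eq]
    _ ≤ liminf (fun k => ∫⁻ p, ENNReal.ofReal (F k p) ∂(m.prod m)) atTop := lintegral_liminf_le hFm
    _ ≤ liminf (fun k : ℕ => ENNReal.ofReal (I (cl m u * Q m T (cl m v))
      + ke n K (ga n θ) ((k : ℝ) + 1) * (I (cl m v) * T * I (cl m u)))) atTop :=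
        liminf_le_liminf (Eventually.of_forall hle)
    _ = _ := hke.liminf_eq

/-- approximation by test functions -/
theorem approx (h : NSp m n K θ) (x₀ : M) {f : M →ₘ[m] ℝ} (h0 : 0 ≤ f) (hf : MemLp f 2 m) :
    ∃ u : ℕ → M → ℝ, (∀ k, ∃ R, TF x₀ R (u k)) ∧
      Tendsto (fun k => I ((cl m (u k) - f) ^ 2)) atTop (𝓝 0) ∧
      ∀ᵐ x ∂m, Tendsto (fun k => u k x) atTop (𝓝 (f x)) := by
  haveI := locFin h
  haveI := h.proper
  have h1 : ∀ k : ℕ, ∃ (u : M → ℝ), (∃ R, TF x₀ R u) ∧ I ((cl m u - f) ^ 2) ≤ (((k : ℝ) + 1)⁻¹) ^ 2 := by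
    intro k
    obtain ⟨g, g1, g2, g3, g4⟩ := hf.exists_hasCompactSupport_eLpNorm_sub_le (by norm_num)
      (ε := ENNReal.ofReal ((k : ℝ) + 1)⁻¹) (by
        rw [Ne, ENNReal.ofReal_eq_zero, not_le]; positivity)
    set u : M → ℝ := fun x => max (g x) 0 with hu
    have hb := g1.isCompact.isBounded.subset_ball x₀
    obtain ⟨R, hR⟩ := hb
    obtain ⟨B, hB⟩ := g1.exists_bound_of_continuous g3
    have hTF : TF x₀ R u := by
      refine ⟨g3.max continuous_const, fun x => le_max_right _ _, fun x hx => ?_, B, fun x => ?_⟩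
      · have : g x = 0 := image_eq_zero_of_notMem_tsupport fun h9 => hx (hR h9)
        simp [hu, this]
      · have h2 := hB x
        rw [Real.norm_eq_abs] at h2
        rw [abs_of_nonneg (le_max_right _ _)]
        exact max_le ((le_abs_self _).trans h2) ((abs_nonneg _).trans h2)
    refine ⟨u, ⟨R, hTF⟩, ?_⟩
    have hm : MemLp (cl m u - f : M →ₘ[m] ℝ) 2 m := mem_sub (hTF.mem h.fin 2) hf
    have h3 : eLpNorm (cl m u - f : M →ₘ[m] ℝ) 2 m ≤ ENNReal.ofReal ((k : ℝ) + 1)⁻¹ := by
      refine le_trans (eLpNorm_mono_ae ?_) g2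
      filter_upwards [sub_ae (cl m u) f, H183.cl_cont (m := m) hTF.cont, nonneg_iff_ae.1 h0] with x a1 a2 a3
      rw [a1, a2, Pi.sub_apply, Real.norm_eq_abs, Real.norm_eq_abs, abs_sub_comm (f x)]
      simp only [hu]
      rcases le_total (g x) 0 with h5 | h5
      · rw [max_eq_right h5, zero_sub, abs_neg, abs_of_nonneg a3, abs_of_nonpos (by linarith)]
        linarith
      · rw [max_eq_left h5]
    rw [eLpNorm_eq_sqrt_I hm] at h3
    have h4 := (ENNReal.ofReal_le_ofReal_iff (by positivity)).1 h3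
    have h5 := pow_le_pow_left₀ (Real.sqrt_nonneg _) h4 2
    rwa [Real.sq_sqrt (I_sq_nonneg _)] at h5
  choose u hu1 hu2 using h1
  have hlim : Tendsto (fun k => I ((cl m (u k) - f) ^ 2)) atTop (𝓝 0) := by
    have h2 : Tendsto (fun k : ℕ => (((k : ℝ) + 1)⁻¹) ^ 2) atTop (𝓝 0) := by
      have := tendsto_inv_succ.pow 2
      simpa using this
    exact squeeze_zero (fun k => I_sq_nonneg _) hu2 h2
  have hmem : ∀ k, MemLp (cl m (u k)) 2 m := fun k => by
    obtain ⟨R, hR⟩ := hu1 k
    exact hR.mem h.fin 2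
  obtain ⟨ns, hns, hae⟩ := exists_subseq_of_I_sq hmem hf hlim
  refine ⟨fun k => u (ns k), fun k => hu1 _, hlim.comp hns.tendsto_atTop, ?_⟩
  have hall : ∀ᵐ x ∂m, ∀ k, cl m (u k) x = u k x := by
    rw [ae_all_iff]
    intro k
    obtain ⟨R, hR⟩ := hu1 k
    exact H183.cl_cont hR.cont
  filter_upwards [hae, hall] with x a1 a2
  simpa only [a2] using a1

/-- **Block H4** (Cheeger–Yau). -/
theorem cheeger_yau (h : NSp m n K θ) (hT : 0 < T) (hT1 : T ≤ 1) {f g : M →ₘ[m] ℝ} (hf0 : 0 ≤ f)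
    (hg0 : 0 ≤ g) (hf : MemLp f 2 m) (hg : MemLp g 2 m) :
    ∫⁻ x, ∫⁻ y, ENNReal.ofReal (f x * KH n K θ T x y * g y) ∂m ∂m ≤
      ENNReal.ofReal (I (f * Q m T g)) := by
  haveI := locFin h
  have hC := h.isDir
  rcases isEmpty_or_nonempty M with hM | ⟨⟨x₀⟩⟩
  · have : m = 0 := Measure.eq_zero_of_isEmpty m
    subst this
    simp
  have hKm : Measurable fun p : M × M => KH n K θ T p.1 p.2 := by
    have : Continuous fun p : M × M => kg n K (ga n θ) T (gg p.1 p.2) :=
      (continuous_kg n K _ T).comp continuous_gg2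
    have e : (fun p : M × M => KH n K θ T p.1 p.2) = fun p : M × M => kg n K (ga n θ) T (gg p.1 p.2) :=
      funext fun p => KH_eq _ _
    rw [e]
    exact this.measurable
  have hfm : Measurable fun p : M × M => ENNReal.ofReal (f p.1 * KH n K θ T p.1 p.2 * g p.2) :=
    ENNReal.measurable_ofReal.comp
      (((f.measurable.comp measurable_fst).mul hKm).mul (g.measurable.comp measurable_snd))
  rw [← lintegral_prod (fun p : M × M => ENNReal.ofReal (f p.1 * KH n K θ T p.1 p.2 * g p.2)) hfm.aemeasurable]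
  obtain ⟨u, hu, hul, hua⟩ := approx h x₀ hf0 hf
  obtain ⟨v, hv, hvl, hva⟩ := approx h x₀ hg0 hg
  set F : ℕ → M × M → ℝ := fun k p => u k p.1 * KH n K θ T p.1 p.2 * v k p.2 with hF
  have hFm : ∀ k, Measurable fun p => ENNReal.ofReal (F k p) := by
    intro k
    obtain ⟨R, hR⟩ := hu k
    obtain ⟨R', hR'⟩ := hv k
    exact ENNReal.measurable_ofReal.comp
      (((hR.cont.measurable.comp measurable_fst).mul hKm).mul (hR'.cont.measurable.comp measurable_snd))
  have hlim : ∀ᵐ p ∂(m.prod m), Tendsto (fun k => ENNReal.ofReal (F k p)) atTop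
      (𝓝 (ENNReal.ofReal (f p.1 * KH n K θ T p.1 p.2 * g p.2))) := by
    filter_upwards [Measure.quasiMeasurePreserving_fst (μ := m) (ν := m) |>.ae hua,
      Measure.quasiMeasurePreserving_snd (μ := m) (ν := m) |>.ae hva] with p h1 h2
    exact ENNReal.tendsto_ofReal ((h1.mul_const _).mul h2)
  have hle : ∀ k, ∫⁻ p, ENNReal.ofReal (F k p) ∂(m.prod m)
      ≤ ENNReal.ofReal (I (cl m (u k) * Q m T (cl m (v k)))) := by
    intro k
    obtain ⟨R, hR⟩ := hu k
    obtain ⟨R', hR'⟩ := hv k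
    exact base h hT hT1 hR hR'
  have hmu : ∀ k, MemLp (cl m (u k)) 2 m := fun k => by
    obtain ⟨R, hR⟩ := hu k
    exact hR.mem h.fin 2
  have hmv : ∀ k, MemLp (cl m (v k)) 2 m := fun k => by
    obtain ⟨R, hR⟩ := hv k
    exact hR.mem h.fin 2
  have hQ : Tendsto (fun k => I ((Q m T (cl m (v k)) - Q m T g) ^ 2)) atTop (𝓝 0) := by
    refine squeeze_zero (fun k => I_sq_nonneg _) (fun k => ?_) hvl
    unfold Q
    rw [← hC.P_sub _ (hmv k) hg]
    exact hC.P_sq_le _ (mem_sub (hmv k) hg)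
  have hI := ENNReal.tendsto_ofReal (tendsto_I_mul (Y := fun k => Q m T (cl m (v k))) hmu hf
    (fun k => hC.P_mem2 _ (hmv k)) (hC.P_mem2 _ hg) hul hQ)
  calc ∫⁻ p, ENNReal.ofReal (f p.1 * KH n K θ T p.1 p.2 * g p.2) ∂(m.prod m)
      = ∫⁻ p, liminf (fun k => ENNReal.ofReal (F k p)) atTop ∂(m.prod m) := by
        refine lintegral_congr_ae ?_
        filter_upwards [hlim] with p hp
        rw [hp.liminf_eq]
    _ ≤ liminf (fun k => ∫⁻ p, ENNReal.ofReal (F k p) ∂(m.prod m)) atTop := lintegral_liminf_le hFm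
    _ ≤ liminf (fun k : ℕ => ENNReal.ofReal (I (cl m (u k) * Q m T (cl m (v k))))) atTop :=
        liminf_le_liminf (Eventually.of_forall hle)
    _ = _ := hI.liminf_eq

end

/-- **Block H4** of RCDA. -/
theorem blk_H4 : Blk_H4.{u} := by
  intro M _ _ _ _ _ m n K θ h s hs hs1 f g hf0 hg0 hf hg
  exact cheeger_yau h hs hs1 hf0 hg0 hf hg

end H339

end Vale.Agent.P233

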