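import Vale.Agent.P233.H103.Semi4

/-!
# Cheeger–Yau comparison, analytic half: the truncated Gaussian of a distance function with
`Δ (d²/2) ≤ n - (2K/3) d²/2` is a subsolution of the backward problem; the pairing with the heat
semigroup decreases.
-/

set_option linter.all false

open MeasureTheory Filter Topology
open scoped ENNReal NNReal InnerProductSpace

namespace Vale.Agent.P233

namespace H339

/-! ### the functions of the time -/

/-- `a(s) = 1/s - K/6 + K²/108 s`. -/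
noncomputable def ca (K s : ℝ) : ℝ := 1 / s - K / 6 + K ^ 2 / 108 * s

/-- `a'(s)`. -/
noncomputable def ca' (K s : ℝ) : ℝ := -(s ^ 2)⁻¹ + K ^ 2 / 108

/-- `b`. -/
noncomputable def cb (n : ℕ) (K : ℝ) : ℝ := n * |K| / 12 + n * K ^ 2 / 216

/-- the Gaussian as a function of `t = d²/2`: `A⁻¹ s^{-n/2} exp(-a(s) t - b s)`. -/
noncomputable def kg (n : ℕ) (K A s t : ℝ) : ℝ :=
  A⁻¹ * s ^ (-((n : ℝ) / 2)) * Real.exp (-(ca K s * t) - cb n K * s)

/-- the logarithmic derivative of the Gaussian in the time. -/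
noncomputable def kl (n : ℕ) (K s t : ℝ) : ℝ := -(n : ℝ) / (2 * s) - ca' K s * t - cb n K

variable {n : ℕ} {K A s t δ T : ℝ}

theorem ca_mul (hs : 0 < s) : s * ca K s = 1 - (K * s) / 6 + (K * s) ^ 2 / 108 := by
  unfold ca
  field_simp

theorem ca_ge (hs : 0 < s) : 1 / (4 * s) ≤ ca K s := by
  have h1 := ca_mul (K := K) hs
  have h2 : 1 / 4 ≤ s * ca K s := by rw [h1]; nlinarith [sq_nonneg (K * s - 9)]
  rw [div_le_iff₀ (by positivity)]
  linarith

theorem ca_pos (hs : 0 < s) : 0 < ca K s := lt_of_lt_of_le (by positivity) (ca_ge hs)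

theorem cb_nonneg : 0 ≤ cb n K := by unfold cb; positivity

theorem kg_pos (hA : 0 < A) (hs : 0 < s) : 0 < kg n K A s t := by
  unfold kg
  positivity

theorem kg_anti (hA : 0 < A) (hs : 0 < s) {t t' : ℝ} (h : t ≤ t') : kg n K A s t' ≤ kg n K A s t := by
  unfold kg
  refine mul_le_mul_of_nonneg_left (Real.exp_le_exp.2 ?_) (by positivity)
  have := mul_le_mul_of_nonneg_left h (ca_pos (K := K) hs).le
  linarith

theorem kg_eq (t : ℝ) : kg n K A s t = kg n K A s δ * Real.exp (-(ca K s) * (t - δ)) := by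
  unfold kg
  rw [mul_assoc (A⁻¹ * s ^ (-((n : ℝ) / 2))), ← Real.exp_add]
  congr 2
  ring

theorem ca_hasDeriv (hs : 0 < s) : HasDerivAt (fun s => ca K s) (ca' K s) s := by
  unfold ca ca'
  have h1 := hasDerivAt_inv hs.ne'
  have h2 : HasDerivAt (fun s : ℝ => K ^ 2 / 108 * s) (K ^ 2 / 108) s := by
    simpa using (hasDerivAt_id s).const_mul (K ^ 2 / 108)
  have h3 := (h1.sub_const (K / 6)).add h2
  simp only [one_div]
  exact h3

theorem kg_hasDeriv (hs : 0 < s) (t : ℝ) :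
    HasDerivAt (fun s => kg n K A s t) (kg n K A s t * kl n K s t) s := by
  have h2 := ((hasDerivAt_id s).rpow_const (p := -((n : ℝ) / 2)) (Or.inl hs.ne')).const_mul A⁻¹
  have h3 : HasDerivAt (fun s : ℝ => -(ca K s * t) - cb n K * s) (-(ca' K s * t) - cb n K) s := by
    have a1 := ((ca_hasDeriv (K := K) hs).mul_const t).neg
    have a2 : HasDerivAt (fun s : ℝ => cb n K * s) (cb n K) s := by
      simpa using (hasDerivAt_id s).const_mul (cb n K)
    exact a1.sub a2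
  have h4 := h2.mul h3.exp
  unfold kg
  refine h4.congr_deriv ?_
  simp only [id]
  rw [Real.rpow_sub_one hs.ne']
  unfold kl
  field_simp
  ring

/-- the pointwise inequality which makes the Gaussian a subsolution -/
theorem kg_key (hs : 0 < s) (hs1 : s ≤ 1) (ht : 0 ≤ t) :
    kl n K s t ≤ 2⁻¹ * (ca K s * (2 * ca K s * t - n + 2 * K / 3 * t)) := by
  have h1 : 2⁻¹ * (ca K s * (2 * ca K s * t - n + 2 * K / 3 * t)) - kl n K s t
      = (K ^ 2 / 108) ^ 2 * s ^ 2 * t + (n * (K + |K|) / 12 + n * (K ^ 2 / 108) / 2 * (1 - s)) := by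
    unfold kl ca ca' cb
    field_simp
    ring
  have h2 : 0 ≤ K + |K| := by linarith [neg_abs_le K]
  have h3 : 0 ≤ 1 - s := by linarith
  have h4 : 0 ≤ (K ^ 2 / 108) ^ 2 * s ^ 2 * t + (n * (K + |K|) / 12 + n * (K ^ 2 / 108) / 2 * (1 - s)) := by
    positivity
  linarith

/-- a bound, uniform in the time, of the error of the truncation at `δ`. -/
noncomputable def ke (n : ℕ) (K A δ : ℝ) : ℝ :=
  A⁻¹ * ((n + 2).factorial * (8 / δ) ^ (n + 2)) * Real.exp (-(δ / 8)) * (n / 2 + K ^ 2 / 108 * δ + cb n K)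

theorem ke_nonneg (hA : 0 < A) (hδ : 0 < δ) : 0 ≤ ke n K A δ := by
  have := cb_nonneg (n := n) (K := K)
  unfold ke; positivity

theorem ke_spec (hA : 0 < A) (hδ : 0 < δ) (hs : 0 < s) (hs1 : s ≤ 1) :
    -(kg n K A s δ * kl n K s δ) ≤ ke n K A δ := by
  have hb := cb_nonneg (n := n) (K := K)
  have h1 : -kl n K s δ ≤ s⁻¹ * (n / 2 + K ^ 2 / 108 * δ + cb n K) := by
    have e : s⁻¹ * (n / 2 + K ^ 2 / 108 * δ + cb n K) - (-kl n K s δ)
        = (s ^ 2)⁻¹ * δ + (s⁻¹ - 1) * (K ^ 2 / 108 * δ + cb n K) := by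
      unfold kl ca'
      field_simp
      ring
    have h2 : 0 ≤ s⁻¹ - 1 := sub_nonneg.2 ((one_le_inv₀ hs).2 hs1)
    have h3 : 0 ≤ (s ^ 2)⁻¹ * δ + (s⁻¹ - 1) * (K ^ 2 / 108 * δ + cb n K) := by positivity
    linarith
  have h2 : kg n K A s δ ≤ A⁻¹ * s ^ (-((n : ℝ) / 2)) * Real.exp (-(δ / (4 * s))) := by
    unfold kg
    refine mul_le_mul_of_nonneg_left (Real.exp_le_exp.2 ?_) (by positivity)
    have := mul_le_mul_of_nonneg_right (ca_ge (K := K) hs) hδ.le
    have e : 1 / (4 * s) * δ = δ / (4 * s) := by ring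
    rw [e] at this
    have : 0 ≤ cb n K * s := by positivity
    linarith
  have h3 : Real.exp (-(δ / (4 * s))) ≤ Real.exp (-(δ / 8)) * ((n + 2).factorial * (8 * s / δ) ^ (n + 2)) := by
    have e : -(δ / (4 * s)) = -(δ / (8 * s)) + -(δ / (8 * s)) := by field_simp; ring
    rw [e, Real.exp_add]
    refine mul_le_mul (Real.exp_le_exp.2 ?_) ?_ (Real.exp_pos _).le (Real.exp_pos _).le
    · rw [neg_le_neg_iff]
      exact div_le_div_of_nonneg_left hδ.le (by positivity) (by linarith)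
    · have h4 := Real.pow_div_factorial_le_exp (x := δ / (8 * s)) (by positivity) (n + 2)
      rw [Real.exp_neg]
      have h5 : ((n + 2).factorial : ℝ) * (8 * s / δ) ^ (n + 2)
          = ((δ / (8 * s)) ^ (n + 2) / (n + 2).factorial)⁻¹ := by
        rw [inv_div, div_pow, div_pow]
        field_simp
      rw [h5]
      exact inv_anti₀ (by positivity) h4
  have h6 : s ^ (-((n : ℝ) / 2)) * s ^ (n + 2) * s⁻¹ ≤ 1 := by
    have e : s ^ (-((n : ℝ) / 2)) * s ^ (n + 2) * s⁻¹ = s ^ ((n : ℝ) / 2 + 1) := by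
      rw [← Real.rpow_natCast, ← Real.rpow_neg_one, ← Real.rpow_add hs, ← Real.rpow_add hs]
      congr 1
      push_cast
      ring
    rw [e]
    exact Real.rpow_le_one hs.le hs1 (by positivity)
  calc -(kg n K A s δ * kl n K s δ) = kg n K A s δ * (-kl n K s δ) := by ring
    _ ≤ kg n K A s δ * (s⁻¹ * (n / 2 + K ^ 2 / 108 * δ + cb n K)) :=
        mul_le_mul_of_nonneg_left h1 (kg_pos hA hs).le
    _ ≤ (A⁻¹ * s ^ (-((n : ℝ) / 2)) * Real.exp (-(δ / (4 * s))))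
          * (s⁻¹ * (n / 2 + K ^ 2 / 108 * δ + cb n K)) :=
        mul_le_mul_of_nonneg_right h2 (by positivity)
    _ ≤ (A⁻¹ * s ^ (-((n : ℝ) / 2)) * (Real.exp (-(δ / 8)) * ((n + 2).factorial * (8 * s / δ) ^ (n + 2))))
          * (s⁻¹ * (n / 2 + K ^ 2 / 108 * δ + cb n K)) := by gcongr
    _ = ke n K A δ * (s ^ (-((n : ℝ) / 2)) * s ^ (n + 2) * s⁻¹) := by
        unfold ke
        rw [show 8 * s / δ = (8 / δ) * s by ring, mul_pow]
        ring
    _ ≤ ke n K A δ * 1 := mul_le_mul_of_nonneg_left h6 (ke_nonneg hA hδ)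
    _ = ke n K A δ := mul_one _

theorem ke_tendsto (n : ℕ) (K A : ℝ) : Tendsto (fun δ => ke n K A δ) atTop (𝓝 0) := by
  have h0 : Tendsto (fun δ : ℝ => (8 / δ) ^ (n + 2)) atTop (𝓝 0) := by
    have := (tendsto_const_nhds (x := (8 : ℝ))).div_atTop tendsto_id
    have h := this.pow (n + 2)
    simpa using h
  have h8 : Tendsto (fun δ : ℝ => δ / 8) atTop atTop := tendsto_id.atTop_div_const (by norm_num)
  have h1 : Tendsto (fun δ : ℝ => Real.exp (-(δ / 8))) atTop (𝓝 0) :=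
    Real.tendsto_exp_neg_atTop_nhds_zero.comp h8
  have h2 : Tendsto (fun δ : ℝ => δ / 8 * Real.exp (-(δ / 8))) atTop (𝓝 0) := by
    have := (Real.tendsto_pow_mul_exp_neg_atTop_nhds_zero 1).comp h8
    simpa [Function.comp_def] using this
  have h3 : Tendsto (fun δ : ℝ => A⁻¹ * ((n + 2).factorial * (8 / δ) ^ (n + 2)) *
      ((n / 2 + cb n K) * Real.exp (-(δ / 8)) + K ^ 2 / 108 * 8 * (δ / 8 * Real.exp (-(δ / 8)))))
      atTop (𝓝 (A⁻¹ * ((n + 2).factorial * 0) * ((n / 2 + cb n K) * 0 + K ^ 2 / 108 * 8 * 0))) :=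
    ((h0.const_mul _).const_mul _).mul ((h1.const_mul _).add (h2.const_mul _))
  rw [show A⁻¹ * ((n + 2).factorial * (0 : ℝ)) * ((n / 2 + cb n K) * 0 + K ^ 2 / 108 * 8 * 0) = 0 by ring]
    at h3
  refine h3.congr fun δ => ?_
  unfold ke
  ring

/-- the truncated kernel as a function of `t` -/
noncomputable def kt (n : ℕ) (K A δ s t : ℝ) : ℝ := kg n K A s (min t δ) - kg n K A s δ

/-- its derivative in `s` -/
noncomputable def kt' (n : ℕ) (K A δ s t : ℝ) : ℝ :=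
  kg n K A s (min t δ) * kl n K s (min t δ) - kg n K A s δ * kl n K s δ

theorem kt_hasDeriv (hs : 0 < s) (t : ℝ) :
    HasDerivAt (fun s => kt n K A δ s t) (kt' n K A δ s t) s :=
  (kg_hasDeriv hs _).sub (kg_hasDeriv hs _)

theorem kt_nonneg (hA : 0 < A) (hs : 0 < s) (t : ℝ) : 0 ≤ kt n K A δ s t :=
  sub_nonneg.2 (kg_anti hA hs (min_le_right _ _))

theorem kt_eq_zero (h : δ ≤ t) : kt n K A δ s t = 0 := by
  unfold kt; rw [min_eq_right h, sub_self]

theorem kt'_eq_zero (h : δ ≤ t) : kt' n K A δ s t = 0 := by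
  unfold kt'; rw [min_eq_right h, sub_self]

theorem kt_le (hA : 0 < A) (hs : 0 < s) (t : ℝ) : kt n K A δ s t ≤ kg n K A s (min t δ) := by
  unfold kt; linarith [kg_pos (n := n) (K := K) (t := δ) hA hs]

theorem continuous_kg (n : ℕ) (K A s : ℝ) : Continuous fun t => kg n K A s t := by
  unfold kg; fun_prop

theorem continuous_kt (n : ℕ) (K A δ s : ℝ) : Continuous fun t => kt n K A δ s t := by
  unfold kt kg; fun_prop

theorem continuous_kt' (n : ℕ) (K A δ s : ℝ) : Continuous fun t => kt' n K A δ s t := by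
  unfold kt' kg kl; fun_prop

theorem continuousOn_kt' (n : ℕ) (K A δ : ℝ) :
    ContinuousOn (fun p : ℝ × ℝ => kt' n K A δ p.1 p.2) (Set.Ioi 0 ×ˢ Set.univ) := by
  unfold kt' kg kl ca ca'
  have h0 : ∀ p ∈ (Set.Ioi 0 ×ˢ Set.univ : Set (ℝ × ℝ)), p.1 ≠ 0 := fun p hp => (Set.mem_Ioi.1 hp.1).ne'
  have h2 : ContinuousOn (fun p : ℝ × ℝ => p.1) (Set.Ioi 0 ×ˢ Set.univ) := continuousOn_fst
  have h3 : ContinuousOn (fun p : ℝ × ℝ => A⁻¹ * p.1 ^ (-((n : ℝ) / 2))) (Set.Ioi 0 ×ˢ Set.univ) :=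
    continuousOn_const.mul (h2.rpow_const (fun p hp => Or.inl (h0 p hp)))
  have h4 : ContinuousOn (fun p : ℝ × ℝ => 1 / p.1) (Set.Ioi 0 ×ˢ Set.univ) := continuousOn_const.div h2 h0
  have h5 : ContinuousOn (fun p : ℝ × ℝ => (p.1 ^ 2)⁻¹) (Set.Ioi 0 ×ˢ Set.univ) :=
    (h2.pow 2).inv₀ (fun p hp => pow_ne_zero 2 (h0 p hp))
  have h6 : ContinuousOn (fun p : ℝ × ℝ => -(n : ℝ) / (2 * p.1)) (Set.Ioi 0 ×ˢ Set.univ) :=
    continuousOn_const.div (continuousOn_const.mul h2) (fun p hp => mul_ne_zero two_ne_zero (h0 p hp))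
  have h7 : ContinuousOn (fun p : ℝ × ℝ => min p.2 δ) (Set.Ioi 0 ×ˢ Set.univ) :=
    (continuous_snd.min continuous_const).continuousOn
  have hA : ContinuousOn (fun p : ℝ × ℝ => 1 / p.1 - K / 6 + K ^ 2 / 108 * p.1) (Set.Ioi 0 ×ˢ Set.univ) :=
    (h4.sub continuousOn_const).add (continuousOn_const.mul h2)
  have hA' : ContinuousOn (fun p : ℝ × ℝ => -(p.1 ^ 2)⁻¹ + K ^ 2 / 108) (Set.Ioi 0 ×ˢ Set.univ) :=
    h5.neg.add continuousOn_const
  have hB : ContinuousOn (fun p : ℝ × ℝ => cb n K * p.1) (Set.Ioi 0 ×ˢ Set.univ) := continuousOn_const.mul h2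
  refine ContinuousOn.sub (ContinuousOn.mul (ContinuousOn.mul h3 ?_) ?_)
    (ContinuousOn.mul (ContinuousOn.mul h3 ?_) ?_)
  · exact ((hA.mul h7).neg.sub hB).rexp
  · exact (h6.sub (hA'.mul h7)).sub continuousOn_const
  · exact ((hA.mul continuousOn_const).neg.sub hB).rexp
  · exact (h6.sub (hA'.mul continuousOn_const)).sub continuousOn_const

/-- a local bound of the difference quotients -/
theorem exists_kt_bound (A : ℝ) (hδ : 0 ≤ δ) (hs : 0 < s) :
    ∃ L : ℝ, 0 ≤ L ∧ ∀ r ∈ Set.Icc (s / 2) (2 * s), ∀ t : ℝ,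
    0 ≤ t → |kt n K A δ r t - kt n K A δ s t| ≤ L * |r - s| ∧ |kt' n K A δ r t| ≤ L := by
  have hc : IsCompact (Set.Icc (s / 2) (2 * s) ×ˢ Set.Icc 0 δ) := isCompact_Icc.prod isCompact_Icc
  obtain ⟨L, hL⟩ := hc.exists_bound_of_continuousOn ((continuousOn_kt' n K A δ).mono
    (Set.prod_mono (fun r hr => lt_of_lt_of_le (by positivity : 0 < s / 2) hr.1) (Set.subset_univ _)))
  have hs2 : s ∈ Set.Icc (s / 2) (2 * s) := ⟨by linarith, by linarith⟩
  have hL0 : 0 ≤ L := (norm_nonneg _).trans (hL (s, 0) ⟨hs2, ⟨le_rfl, hδ⟩⟩)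
  have hL' : ∀ r ∈ Set.Icc (s / 2) (2 * s), ∀ t : ℝ, 0 ≤ t → |kt' n K A δ r t| ≤ L := by
    intro r hr t ht
    rcases le_total t δ with h | h
    · exact hL (r, t) ⟨hr, ht, h⟩
    · rw [kt'_eq_zero h, abs_zero]; exact hL0
  refine ⟨L, hL0, fun r hr t ht => ⟨?_, hL' r hr t ht⟩⟩
  exact Convex.norm_image_sub_le_of_norm_hasDerivWithin_le (f := fun r => kt n K A δ r t)
    (f' := fun r => kt' n K A δ r t) (s := Set.Icc (s / 2) (2 * s)) (C := L)
    (fun x hx => (kt_hasDeriv (lt_of_lt_of_le (by positivity) hx.1) t).hasDerivWithinAt)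
    (fun x hx => hL' x hx t ht) (convex_Icc _ _) hs2 hr

end H339

end Vale.Agent.P233
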