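import Vale.Agent.P233.H339.CY0

/-!
# Cheeger–Yau comparison, analytic half: the truncated Gaussian of a function `g` with
`Δ g ≤ n - (2K/3) g`, `Γ g = 2 g` is a subsolution; its pairing with the backward heat flow decreases.
-/

set_option linter.all false

open MeasureTheory Filter Topology
open scoped ENNReal NNReal InnerProductSpace

namespace Vale.Agent.P233

namespace H339

variable {M : Type*} [MeasurableSpace M] {m : Measure M} {C : Calc m}
variable {n : ℕ} {K A s t δ T : ℝ} {w f φ : M →ₘ[m] ℝ} {g : M → ℝ}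

/-- chain rule for `exp (a w) - 1` -/
theorem exists_exp (hC : IsDir C) (hw : w ∈ C.W) {B : ℝ} (hB : ∀ᵐ x ∂m, |w x| ≤ B) (a : ℝ) :
    ∃ e ∈ C.A, (∀ᵐ x ∂m, e x = Real.exp (a * w x) - 1) ∧
      ∀ g ∈ C.W, ∀ᵐ x ∂m, C.Γ e g x = a * Real.exp (a * w x) * C.Γ w g x := by
  have hφ : Continuous fun t : ℝ => Real.exp (a * t) - 1 := by fun_prop
  have hφ' : Continuous fun t : ℝ => a * Real.exp (a * t) := by fun_prop
  obtain ⟨h1, h2⟩ := hC.chain_bdd hw hB hφ hφ' (fun t _ => by
    have h1 : HasDerivAt (fun t : ℝ => a * t) a t := by simpa using (hasDerivAt_id t).const_mul a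
    have h2 := (h1.exp.sub_const 1).hasDerivWithinAt (s := Set.Icc (-B) B)
    rwa [mul_comm (Real.exp (a * t))] at h2) (by simp)
  have hc := AEEqFun.coeFn_comp (fun t : ℝ => Real.exp (a * t) - 1) hφ w
  have hc' := AEEqFun.coeFn_comp (fun t : ℝ => a * Real.exp (a * t)) hφ' w
  refine ⟨_, ⟨h1, ?_⟩, ?_, ?_⟩
  · rw [mem_top_iff]
    refine ⟨Real.exp (|a| * B) + 1, ?_⟩
    filter_upwards [hc, hB] with x h3 h4
    rw [h3, Function.comp_apply]
    have h5 : Real.exp (a * w x) ≤ Real.exp (|a| * B) := Real.exp_le_exp.2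
      ((le_abs_self _).trans (by rw [abs_mul]; exact mul_le_mul_of_nonneg_left h4 (abs_nonneg _)))
    have h6 := Real.exp_pos (a * w x)
    rw [abs_le]; constructor <;> linarith
  · filter_upwards [hc] with x h3
    rw [h3]; rfl
  · intro g hg
    rw [h2 g hg]
    filter_upwards [mul_ae (AEEqFun.comp _ hφ' w) (C.Γ w g), hc'] with x h3 h4
    rw [h3, h4]; rfl

/-- The hypotheses on `g = d_y²/2` at the level `δ`: `w = min(g,δ) - δ`. -/
structure LC (C : Calc m) (n : ℕ) (K δ : ℝ) (g : M → ℝ) (w : M →ₘ[m] ℝ) : Prop where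
  δ_pos : 0 < δ
  meas : Measurable g
  nonneg : ∀ x, 0 ≤ g x
  fin : m {x | g x < δ} < ∞
  mem : w ∈ C.W
  eq : ∀ᵐ x ∂m, w x = min (g x) δ - δ
  grad : ∀ᵐ x ∂m, g x < δ → 2 * g x ≤ C.Γ w w x
  lap : ∀ φ ∈ C.A, 0 ≤ φ → -I (C.Γ w φ) ≤ ∫ x in {x | g x < δ}, (n - 2 * K / 3 * g x) * φ x ∂m

namespace LC

theorem meas_set (h : LC C n K δ g w) : MeasurableSet {x | g x < δ} :=
  measurableSet_lt h.meas measurable_const

theorem bdd (h : LC C n K δ g w) : ∀ᵐ x ∂m, |w x| ≤ δ := by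
  filter_upwards [h.eq] with x hx
  rw [hx, abs_le]
  have := h.nonneg x
  have := h.δ_pos
  have h1 : 0 ≤ min (g x) δ := le_min (h.nonneg x) h.δ_pos.le
  have h2 : min (g x) δ ≤ δ := min_le_right _ _
  constructor <;> linarith

theorem memA (h : LC C n K δ g w) : w ∈ C.A := ⟨h.mem, mem_top_iff.2 ⟨δ, h.bdd⟩⟩

/-- integrability of a bounded function of `g` times `φ ∈ L²` on `{g < δ}` -/
theorem integrable (h : LC C n K δ g w) (hφ : MemLp φ 2 m) {F : ℝ → ℝ} (hF : Continuous F) :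
    IntegrableOn (fun x => F (g x) * φ x) {x | g x < δ} m := by
  obtain ⟨L, hL⟩ := (isCompact_Icc (a := (0 : ℝ)) (b := δ)).exists_bound_of_continuousOn hF.continuousOn
  have h1 : IntegrableOn φ {x | g x < δ} m := by
    have : Fact (m {x | g x < δ} < ∞) := ⟨h.fin⟩
    exact (hφ.restrict _).integrable (by norm_num)
  refine Integrable.mono' (h1.norm.const_mul L)
    (((hF.measurable.comp h.meas).aestronglyMeasurable).mul h1.aestronglyMeasurable) ?_
  filter_upwards [ae_restrict_mem h.meas_set] with x hx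
  rw [norm_mul]
  exact mul_le_mul_of_nonneg_right (hL _ ⟨h.nonneg x, le_of_lt hx⟩) (norm_nonneg _)

/-- the Laplacian of `exp (-a w) - 1` -/
theorem lap_exp (hC : IsDir C) (h : LC C n K δ g w) {a : ℝ} (ha : 0 < a) {e : M →ₘ[m] ℝ}
    (heA : e ∈ C.A) (he : ∀ᵐ x ∂m, e x = Real.exp (-a * w x) - 1)
    (heΓ : ∀ g ∈ C.W, ∀ᵐ x ∂m, C.Γ e g x = -a * Real.exp (-a * w x) * C.Γ w g x)
    (hφ : φ ∈ C.A) (h0 : 0 ≤ φ) :
    ∫ x in {x | g x < δ}, Real.exp (-a * (g x - δ)) * (a * (2 * a * g x - n + 2 * K / 3 * g x)) * φ x ∂m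
      ≤ -I (C.Γ e φ) := by
  set ψ : M →ₘ[m] ℝ := φ + e * φ with hψ
  have hψA : ψ ∈ C.A := hC.A_add hφ (hC.mul_mem_A heA hφ)
  have hψe : ∀ᵐ x ∂m, ψ x = Real.exp (-a * w x) * φ x := by
    filter_upwards [add_ae φ (e * φ), mul_ae e φ, he] with x h1 h2 h3
    rw [hψ, h1, h2, h3]; ring
  have hψ0 : 0 ≤ ψ := by
    rw [nonneg_iff_ae] at h0 ⊢
    filter_upwards [h0, hψe] with x h1 h2
    rw [h2]; exact mul_nonneg (Real.exp_pos _).le h1
  have hlc := h.lap ψ hψA hψ0
  have hΓψ : ∀ᵐ x ∂m, C.Γ w ψ x = Real.exp (-a * w x) * C.Γ w φ x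
      - a * Real.exp (-a * w x) * φ x * C.Γ w w x := by
    have e1 : C.Γ w ψ = C.Γ w φ + (e * C.Γ w φ + φ * C.Γ w e) := by
      rw [hψ, hC.Γ_add_right h.mem hφ.1 (hC.mul_mem_A heA hφ).1, hC.Γ_mul_right heA hφ h.mem]
    rw [e1, hC.symm w h.mem e heA.1]
    filter_upwards [add_ae (C.Γ w φ) (e * C.Γ w φ + φ * C.Γ e w), add_ae (e * C.Γ w φ) (φ * C.Γ e w),
      mul_ae e (C.Γ w φ), mul_ae φ (C.Γ e w), heΓ w h.mem, he] with x h1 h2 h3 h4 h5 h6
    rw [h1, h2, h3, h4, h5, h6]; ring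
  have hφ2 : MemLp φ 2 m := hC.memLp φ hφ.1
  -- integrability
  have hexp : MemLp (fun x => Real.exp (-a * w x)) ∞ m := by
    refine memLp_top_of_bound ((Real.continuous_exp.measurable.comp_aemeasurable
      (w.aemeasurable.const_mul (-a))).aestronglyMeasurable) (Real.exp (a * δ)) ?_
    filter_upwards [h.bdd] with x hx
    rw [Real.norm_eq_abs, abs_of_pos (Real.exp_pos _)]
    refine Real.exp_le_exp.2 ?_
    have := (abs_le.1 hx).1
    nlinarith
  have i1 : Integrable (fun x => Real.exp (-a * w x) * C.Γ w φ x) m := by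
    have := (int_of_mem (hC.Γ_mem1 h.mem hφ.1)).bdd_mul (c := Real.exp (a * δ)) hexp.1 (by
      filter_upwards [h.bdd] with x hx
      rw [Real.norm_eq_abs, abs_of_pos (Real.exp_pos _)]
      refine Real.exp_le_exp.2 ?_
      have := (abs_le.1 hx).1
      nlinarith)
    exact this
  obtain ⟨R, hR⟩ := mem_top_iff.1 hφ.2
  have i2 : Integrable (fun x => Real.exp (-a * w x) * φ x * C.Γ w w x) m := by
    refine (int_of_mem (hC.mem1 w h.mem)).bdd_mul (c := Real.exp (a * δ) * R)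
      (hexp.1.mul φ.aestronglyMeasurable) ?_
    filter_upwards [h.bdd, hR] with x hx hr
    rw [norm_mul, Real.norm_eq_abs, Real.norm_eq_abs, abs_of_pos (Real.exp_pos _)]
    refine mul_le_mul (Real.exp_le_exp.2 ?_) hr (abs_nonneg _) (Real.exp_pos _).le
    have := (abs_le.1 hx).1
    nlinarith
  have e2 : I (C.Γ w ψ) = ∫ x, Real.exp (-a * w x) * C.Γ w φ x ∂m
      - a * ∫ x, Real.exp (-a * w x) * φ x * C.Γ w w x ∂m := by
    unfold I
    rw [integral_congr_ae hΓψ, ← integral_const_mul, ← integral_sub i1 (i2.const_mul a)]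
    refine integral_congr_ae (Eventually.of_forall fun x => ?_)
    simp only
    ring
  have e3 : I (C.Γ e φ) = -(a * ∫ x, Real.exp (-a * w x) * C.Γ w φ x ∂m) := by
    unfold I
    rw [integral_congr_ae (heΓ φ hφ.1), ← integral_const_mul, ← integral_neg]
    refine integral_congr_ae (Eventually.of_forall fun x => ?_)
    simp only
    ring
  have hc1 : Continuous fun t : ℝ => (n - 2 * K / 3 * t) * Real.exp (-a * (t - δ)) := by fun_prop
  have hc2 : Continuous fun t : ℝ => Real.exp (-a * (t - δ)) * (2 * t) := by fun_prop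
  have j1 := h.integrable hφ2 hc1
  have j2 := h.integrable hφ2 hc2
  have e4 : ∫ x in {x | g x < δ}, (n - 2 * K / 3 * g x) * ψ x ∂m
      = ∫ x in {x | g x < δ}, (n - 2 * K / 3 * g x) * Real.exp (-a * (g x - δ)) * φ x ∂m := by
    refine setIntegral_congr_ae h.meas_set ?_
    filter_upwards [hψe, h.eq] with x h1 h2 h3
    rw [h1, h2, min_eq_left (le_of_lt h3)]; ring
  have e5 : ∫ x in {x | g x < δ}, Real.exp (-a * (g x - δ)) * (2 * g x) * φ x ∂m
      ≤ ∫ x, Real.exp (-a * w x) * φ x * C.Γ w w x ∂m := by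
    refine le_trans ?_ (setIntegral_le_integral (s := {x | g x < δ}) i2 ?_)
    · refine setIntegral_mono_on_ae j2 i2.integrableOn h.meas_set ?_
      filter_upwards [h.eq, h.grad, nonneg_iff_ae.1 h0] with x h1 h2 h3 h4
      rw [h1, min_eq_left (le_of_lt h4)]
      have h5 := mul_le_mul_of_nonneg_left (h2 h4) (mul_nonneg (Real.exp_pos (-a * (g x - δ))).le h3)
      nlinarith
    · filter_upwards [nonneg_iff_ae.1 h0, hC.Γ_nonneg_ae h.mem] with x h1 h2
      exact mul_nonneg (mul_nonneg (Real.exp_pos _).le h1) h2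
  have e6 : ∫ x in {x | g x < δ}, Real.exp (-a * (g x - δ)) * (a * (2 * a * g x - n + 2 * K / 3 * g x)) * φ x ∂m
      = a * (a * ∫ x in {x | g x < δ}, Real.exp (-a * (g x - δ)) * (2 * g x) * φ x ∂m
        - ∫ x in {x | g x < δ}, (n - 2 * K / 3 * g x) * Real.exp (-a * (g x - δ)) * φ x ∂m) := by
    rw [← integral_const_mul, ← integral_sub (j2.const_mul a) j1, ← integral_const_mul]
    refine integral_congr_ae (Eventually.of_forall fun x => ?_)
    simp only
    ring
  rw [e6, e3, neg_neg]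
  refine mul_le_mul_of_nonneg_left ?_ ha.le
  rw [e4, e2] at hlc
  have := mul_le_mul_of_nonneg_left e5 ha.le
  linarith

end LC

/-! ### the truncated kernel -/

/-- the truncated kernel -/
noncomputable def kk (hg : Measurable g) (m : Measure M) (n : ℕ) (K A δ s : ℝ) : M →ₘ[m] ℝ :=
  AEEqFun.mk (fun x => kt n K A δ s (g x))
    ((continuous_kt n K A δ s).measurable.comp hg).aestronglyMeasurable

/-- its derivative in the time -/
noncomputable def kk' (hg : Measurable g) (m : Measure M) (n : ℕ) (K A δ s : ℝ) : M →ₘ[m] ℝ :=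
  AEEqFun.mk (fun x => kt' n K A δ s (g x))
    ((continuous_kt' n K A δ s).measurable.comp hg).aestronglyMeasurable

theorem kk_ae (hg : Measurable g) : ∀ᵐ x ∂m, kk hg m n K A δ s x = kt n K A δ s (g x) :=
  AEEqFun.coeFn_mk _ _

theorem kk'_ae (hg : Measurable g) : ∀ᵐ x ∂m, kk' hg m n K A δ s x = kt' n K A δ s (g x) :=
  AEEqFun.coeFn_mk _ _

/-- a bounded function vanishing outside `{g < δ}` is in `L²` -/
theorem memLp_of_bound {p : ℝ≥0∞} {u : M →ₘ[m] ℝ} {D : Set M} (hD : MeasurableSet D) (hfin : m D < ∞) {L : ℝ}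
    (h1 : ∀ᵐ x ∂m, x ∈ D → |u x| ≤ L) (h2 : ∀ᵐ x ∂m, x ∉ D → u x = 0) : MemLp u p m := by
  have h3 : MemLp (D.indicator fun _ => L) p m := memLp_indicator_const p hD L (Or.inr hfin.ne)
  refine h3.mono u.aestronglyMeasurable ?_
  filter_upwards [h1, h2] with x a1 a2
  by_cases hx : x ∈ D
  · rw [Set.indicator_of_mem hx, Real.norm_eq_abs, Real.norm_eq_abs]
    exact (a1 hx).trans (le_abs_self _)
  · rw [a2 hx]; simp

theorem kk_deriv (h : LC C n K δ g w) (hs : 0 < s) :
    MemLp (kk h.meas m n K A δ s) 2 m ∧ MemLp (kk' h.meas m n K A δ s) 2 m ∧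
    Tendsto (fun r => I (((r - s)⁻¹ • (kk h.meas m n K A δ r - kk h.meas m n K A δ s)
      - kk' h.meas m n K A δ s) ^ 2)) (𝓝[≠] s) (𝓝 0) ∧
    ∀ᶠ r in 𝓝 s, MemLp (kk h.meas m n K A δ r) 2 m := by
  have hD := h.meas_set
  have hmem : ∀ r : ℝ, MemLp (kk h.meas m n K A δ r) 2 m := by
    intro r
    obtain ⟨L, hL⟩ := (isCompact_Icc (a := (0 : ℝ)) (b := δ)).exists_bound_of_continuousOn
      (continuous_kt n K A δ r).continuousOn
    refine memLp_of_bound hD h.fin (L := L) ?_ ?_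
    · filter_upwards [kk_ae (m := m) (n := n) (K := K) (A := A) (δ := δ) (s := r) h.meas] with x h1 h2
      rw [h1]; exact hL _ ⟨h.nonneg x, le_of_lt h2⟩
    · filter_upwards [kk_ae (m := m) (n := n) (K := K) (A := A) (δ := δ) (s := r) h.meas] with x h1 h2
      rw [h1]; exact kt_eq_zero (not_lt.1 h2)
  have hmem' : MemLp (kk' h.meas m n K A δ s) 2 m := by
    obtain ⟨L, hL⟩ := (isCompact_Icc (a := (0 : ℝ)) (b := δ)).exists_bound_of_continuousOn
      (continuous_kt' n K A δ s).continuousOn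
    refine memLp_of_bound hD h.fin (L := L) ?_ ?_
    · filter_upwards [kk'_ae (m := m) (n := n) (K := K) (A := A) (δ := δ) (s := s) h.meas] with x h1 h2
      rw [h1]; exact hL _ ⟨h.nonneg x, le_of_lt h2⟩
    · filter_upwards [kk'_ae (m := m) (n := n) (K := K) (A := A) (δ := δ) (s := s) h.meas] with x h1 h2
      rw [h1]; exact kt'_eq_zero (not_lt.1 h2)
  refine ⟨hmem s, hmem', ?_, Eventually.of_forall hmem⟩
  obtain ⟨L, hL0, hL⟩ := exists_kt_bound (n := n) (K := K) A h.δ_pos.le hs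
  have key : ∀ r : ℝ, I (((r - s)⁻¹ • (kk h.meas m n K A δ r - kk h.meas m n K A δ s)
      - kk' h.meas m n K A δ s) ^ 2) = ∫ x in {x | g x < δ},
        ((r - s)⁻¹ * (kt n K A δ r (g x) - kt n K A δ s (g x)) - kt' n K A δ s (g x)) ^ 2 ∂m := by
    intro r
    unfold I
    rw [← integral_indicator hD]
    refine integral_congr_ae ?_
    filter_upwards [sq_ae ((r - s)⁻¹ • (kk h.meas m n K A δ r - kk h.meas m n K A δ s)
      - kk' h.meas m n K A δ s), sub_ae ((r - s)⁻¹ • (kk h.meas m n K A δ r - kk h.meas m n K A δ s))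
      (kk' h.meas m n K A δ s), smul_ae (kk h.meas m n K A δ r - kk h.meas m n K A δ s) (r - s)⁻¹,
      sub_ae (kk h.meas m n K A δ r) (kk h.meas m n K A δ s),
      kk_ae (m := m) (n := n) (K := K) (A := A) (δ := δ) (s := r) h.meas,
      kk_ae (m := m) (n := n) (K := K) (A := A) (δ := δ) (s := s) h.meas,
      kk'_ae (m := m) (n := n) (K := K) (A := A) (δ := δ) (s := s) h.meas] with x h1 h2 h3 h4 h5 h6 h7
    rw [h1, h2, h3, h4, h5, h6, h7]
    by_cases hx : g x < δ
    · rw [Set.indicator_of_mem (by exact hx)]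
    · rw [Set.indicator_of_notMem (by exact hx), kt_eq_zero (not_lt.1 hx), kt_eq_zero (not_lt.1 hx),
        kt'_eq_zero (not_lt.1 hx)]
      ring
  simp_rw [key]
  have hz : (0 : ℝ) = ∫ x in {x | g x < δ}, (0 : ℝ) ∂m := by simp
  rw [hz]
  have : Fact (m {x | g x < δ} < ∞) := ⟨h.fin⟩
  refine tendsto_integral_filter_of_dominated_convergence (fun _ => (2 * L) ^ 2) ?_ ?_
    (integrable_const _) ?_
  · refine Eventually.of_forall fun r => ?_
    have h1 := (continuous_kt n K A δ r).measurable.comp h.meas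
    have h2 := (continuous_kt n K A δ s).measurable.comp h.meas
    have h3 := (continuous_kt' n K A δ s).measurable.comp h.meas
    exact ((((h1.sub h2).const_mul _).sub h3).pow_const 2).aestronglyMeasurable
  · have hn : ∀ᶠ r in 𝓝[≠] s, r ∈ Set.Icc (s / 2) (2 * s) ∧ r ≠ s := by
      refine Filter.Eventually.and ?_ self_mem_nhdsWithin
      exact mem_nhdsWithin_of_mem_nhds (Icc_mem_nhds (by linarith) (by linarith))
    filter_upwards [hn] with r hr
    refine Eventually.of_forall fun x => ?_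
    obtain ⟨a1, a2⟩ := hL r hr.1 (g x) (h.nonneg x)
    obtain ⟨b1, b2⟩ := hL s ⟨by linarith, by linarith⟩ (g x) (h.nonneg x)
    have hrs : 0 < |r - s| := abs_pos.2 (sub_ne_zero.2 hr.2)
    rw [Real.norm_eq_abs, abs_pow]
    refine pow_le_pow_left₀ (abs_nonneg _) ?_ 2
    refine (abs_sub _ _).trans ?_
    rw [abs_mul, abs_inv]
    have : |r - s|⁻¹ * |kt n K A δ r (g x) - kt n K A δ s (g x)| ≤ L := by
      rw [inv_mul_le_iff₀ hrs]; linarith
    linarith
  · refine Eventually.of_forall fun x => ?_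
    have h1 := (hasDerivAt_iff_tendsto_slope.1 (kt_hasDeriv (n := n) (K := K) (A := A) (δ := δ) hs (g x)))
    have h2 := (h1.sub_const (kt' n K A δ s (g x))).pow 2
    rw [sub_self, zero_pow two_ne_zero] at h2
    refine h2.congr fun r => ?_
    rw [slope_def_module]; rfl

/-- the truncated kernel is in `W` and is a subsolution -/
theorem kk_sub (hC : IsDir C) (h : LC C n K δ g w) (hA : 0 < A) (hs : 0 < s) (hs1 : s ≤ 1) :
    kk h.meas m n K A δ s ∈ C.W ∧ ∀ φ ∈ C.A, 0 ≤ φ →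
      ∫ x in {x | g x < δ}, kg n K A s (g x) * kl n K s (g x) * φ x ∂m
        ≤ -(2⁻¹ * I (C.Γ (kk h.meas m n K A δ s) φ)) := by
  have ha := ca_pos (K := K) hs
  obtain ⟨e, heA, he, heΓ⟩ := exists_exp hC h.mem h.bdd (-(ca K s))
  have heq : kk h.meas m n K A δ s = kg n K A s δ • e := by
    rw [eq_iff_ae]
    filter_upwards [kk_ae (m := m) (n := n) (K := K) (A := A) (δ := δ) (s := s) h.meas,
      smul_ae e (kg n K A s δ), he, h.eq] with x h1 h2 h3 h4
    rw [h1, h2, h3, h4, kt, kg_eq (δ := δ) (min (g x) δ)]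
    ring
  refine ⟨heq ▸ hC.smul_mem _ _ heA.1, fun φ hφ h0 => ?_⟩
  have h1 := h.lap_exp hC ha heA he heΓ hφ h0
  rw [heq, hC.smul_left _ _ heA.1 _ hφ.1, I_smul]
  have h2 := mul_le_mul_of_nonneg_left h1 (mul_nonneg (by norm_num : (0 : ℝ) ≤ 2⁻¹) (kg_pos (n := n) (K := K)
    (t := δ) hA hs).le)
  refine le_trans ?_ (h2.trans (le_of_eq (by ring)))
  rw [← integral_const_mul]
  have hφ2 : MemLp φ 2 m := hC.memLp φ hφ.1
  have hc1 : Continuous fun t : ℝ => kg n K A s t * kl n K s t := by unfold kg kl; fun_prop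
  have hc2 : Continuous fun t : ℝ => 2⁻¹ * kg n K A s δ * (Real.exp (-(ca K s) * (t - δ)) *
    (ca K s * (2 * ca K s * t - n + 2 * K / 3 * t))) := by fun_prop
  have i2 : IntegrableOn (fun x => 2⁻¹ * kg n K A s δ * (Real.exp (-(ca K s) * (g x - δ)) *
    (ca K s * (2 * ca K s * g x - n + 2 * K / 3 * g x)) * φ x)) {x | g x < δ} m := by
    have := h.integrable hφ2 hc2
    simpa only [mul_assoc] using this
  refine setIntegral_mono_on_ae (h.integrable hφ2 hc1) i2 h.meas_set ?_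
  filter_upwards [nonneg_iff_ae.1 h0] with x h3 h4
  have h5 := kg_key (n := n) (K := K) hs hs1 (h.nonneg x)
  have h6 := kg_eq (n := n) (K := K) (A := A) (s := s) (δ := δ) (g x)
  have h7 : 2⁻¹ * kg n K A s δ * (Real.exp (-(ca K s) * (g x - δ)) *
      (ca K s * (2 * ca K s * g x - n + 2 * K / 3 * g x)) * φ x)
      = kg n K A s (g x) * (2⁻¹ * (ca K s * (2 * ca K s * g x - n + 2 * K / 3 * g x))) * φ x := by
    rw [h6]; ring
  rw [h7]
  exact mul_le_mul_of_nonneg_right (mul_le_mul_of_nonneg_left h5 (kg_pos hA hs).le) h3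

/-- `P_{(T-s)/2}`, differentiated -/
theorem P_back_deriv (hC : IsDir C) (hf : MemLp f 2 m) (hsT : s < T) :
    Tendsto (fun r => I (((r - s)⁻¹ • (C.P ((T - r) / 2) f - C.P ((T - s) / 2) f)
      - (-2⁻¹ : ℝ) • C.lap (C.P ((T - s) / 2) f)) ^ 2)) (𝓝[≠] s) (𝓝 0) := by
  have h1 := hC.P_deriv (t := (T - s) / 2) (by linarith) hf
  have h2 : Tendsto (fun r : ℝ => (T - r) / 2) (𝓝[≠] s) (𝓝[≠] ((T - s) / 2)) := by
    refine tendsto_nhdsWithin_iff.2 ⟨?_, ?_⟩
    · exact (Continuous.tendsto (by fun_prop) s).mono_left nhdsWithin_le_nhds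
    · filter_upwards [self_mem_nhdsWithin] with r hr
      simp only [Set.mem_compl_iff, Set.mem_singleton_iff] at hr ⊢
      intro h; apply hr; linarith
  have h3 := (h1.comp h2).const_mul (4⁻¹ : ℝ)
  rw [mul_zero] at h3
  refine h3.congr' ?_
  filter_upwards [self_mem_nhdsWithin] with r hr
  simp only [Set.mem_compl_iff, Set.mem_singleton_iff] at hr
  simp only [Function.comp_apply]
  rw [← I_smul]
  congr 1
  rw [eq_iff_ae]
  set X := C.P ((T - r) / 2) f
  set Y := C.P ((T - s) / 2) f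
  set Z := C.lap Y
  filter_upwards [smul_ae ((((T - r) / 2 - (T - s) / 2)⁻¹ • (X - Y) - Z) ^ 2) (4⁻¹ : ℝ),
    sq_ae (((T - r) / 2 - (T - s) / 2)⁻¹ • (X - Y) - Z),
    sub_ae (((T - r) / 2 - (T - s) / 2)⁻¹ • (X - Y)) Z,
    smul_ae (X - Y) (((T - r) / 2 - (T - s) / 2)⁻¹), sub_ae X Y,
    sq_ae ((r - s)⁻¹ • (X - Y) - (-2⁻¹ : ℝ) • Z), sub_ae ((r - s)⁻¹ • (X - Y)) ((-2⁻¹ : ℝ) • Z),
    smul_ae (X - Y) (r - s)⁻¹, smul_ae Z (-2⁻¹ : ℝ)] with x a1 a2 a3 a4 a5 a6 a7 a8 a9
  rw [a1, a2, a3, a4, a5, a6, a7, a8, a9, a5]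
  have hne : r - s ≠ 0 := sub_ne_zero.2 hr
  have e : (T - r) / 2 - (T - s) / 2 = -((r - s) / 2) := by ring
  rw [e]
  field_simp
  ring

/-- the pairing of the truncated kernel with the backward heat flow -/
theorem H_deriv (hC : IsDir C) (h : LC C n K δ g w) (hA : 0 < A) (hs : 0 < s) (hs1 : s ≤ 1) (hsT : s < T)
    (hf : MemLp f 2 m) :
    HasDerivAt (fun r => I (kk h.meas m n K A δ r * C.P ((T - r) / 2) f))
      (I (kk' h.meas m n K A δ s * C.P ((T - s) / 2) f)
        + 2⁻¹ * I (C.Γ (kk h.meas m n K A δ s) (C.P ((T - s) / 2) f))) s := by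
  obtain ⟨k1, k2, k3, k4⟩ := kk_deriv (A := A) h hs
  have hT : 0 < (T - s) / 2 := by linarith
  have p1 := P_back_deriv hC hf hsT
  have hP : ∀ r, MemLp (C.P ((T - r) / 2) f) 2 m := fun r => hC.P_mem2 _ hf
  have hlap := hC.P_isLap hT hf
  have hcont : Tendsto (fun r => I ((C.P ((T - r) / 2) f - C.P ((T - s) / 2) f) ^ 2)) (𝓝[≠] s) (𝓝 0) := by
    have h1 := hC.P_cont hf ((T - s) / 2)
    have h2 : Tendsto (fun r : ℝ => (T - r) / 2) (𝓝[≠] s) (𝓝 ((T - s) / 2)) :=
      (Continuous.tendsto (by fun_prop) s).mono_left nhdsWithin_le_nhds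
    exact h1.comp h2
  rw [hasDerivAt_iff_tendsto_slope]
  have hk4 : ∀ r, MemLp (kk h.meas m n K A δ r) 2 m := by
    intro r
    obtain ⟨L, hL⟩ := (isCompact_Icc (a := (0 : ℝ)) (b := δ)).exists_bound_of_continuousOn
      (continuous_kt n K A δ r).continuousOn
    refine memLp_of_bound h.meas_set h.fin (L := L) ?_ ?_
    · filter_upwards [kk_ae (m := m) (n := n) (K := K) (A := A) (δ := δ) (s := r) h.meas] with x h1 h2
      rw [h1]; exact hL _ ⟨h.nonneg x, le_of_lt h2⟩
    · filter_upwards [kk_ae (m := m) (n := n) (K := K) (A := A) (δ := δ) (s := r) h.meas] with x h1 h2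
      rw [h1]; exact kt_eq_zero (not_lt.1 h2)
  have t1 := tendsto_I_mul (X := fun r => (r - s)⁻¹ • (kk h.meas m n K A δ r - kk h.meas m n K A δ s))
    (Y := fun r => C.P ((T - r) / 2) f) (fun r => mem_smul _ (mem_sub (hk4 r) k1)) k2 hP (hP s) k3 hcont
  have t2 := tendsto_I_mul (X := fun r => kk h.meas m n K A δ s)
    (Y := fun r => (r - s)⁻¹ • (C.P ((T - r) / 2) f - C.P ((T - s) / 2) f)) (l := 𝓝[≠] s)
    (x := kk h.meas m n K A δ s) (y := (-2⁻¹ : ℝ) • C.lap (C.P ((T - s) / 2) f))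
    (fun _ => k1) k1 (fun r => mem_smul _ (mem_sub (hP r) (hP s))) (mem_smul _ hlap.2.1)
    (by simp only [sub_self]; rw [show ((0 : M →ₘ[m] ℝ) ^ 2) = 0 by rw [sq, zero_mul], I_zero]
        exact tendsto_const_nhds) p1
  have e1 : I (kk h.meas m n K A δ s * ((-2⁻¹ : ℝ) • C.lap (C.P ((T - s) / 2) f)))
      = 2⁻¹ * I (C.Γ (kk h.meas m n K A δ s) (C.P ((T - s) / 2) f)) := by
    have hk := (kk_sub hC h hA hs hs1).1
    rw [mul_smul_comm, I_smul, mul_comm (kk h.meas m n K A δ s), hC.symm _ hk _ hlap.1]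
    have := hlap.2.2 _ hk
    unfold I at this ⊢
    rw [this]; ring
  rw [e1] at t2
  refine (t1.add t2).congr' ?_
  filter_upwards [self_mem_nhdsWithin] with r hr
  rw [slope_def_module, smul_eq_mul]
  have m1 : MemLp (kk h.meas m n K A δ r * C.P ((T - r) / 2) f : M →ₘ[m] ℝ) 1 m := mem_mul_22 (hk4 r) (hP r)
  have m2 : MemLp (kk h.meas m n K A δ s * C.P ((T - s) / 2) f : M →ₘ[m] ℝ) 1 m := mem_mul_22 k1 (hP s)
  rw [← I_add (mem_mul_22 (mem_smul _ (mem_sub (hk4 r) k1)) (hP r))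
    (mem_mul_22 k1 (mem_smul _ (mem_sub (hP r) (hP s)))), ← I_sub m1 m2, ← I_smul]
  congr 1
  have : ∀ (c : ℝ) (a b u v : M →ₘ[m] ℝ), c • (a - b) * u + b * c • (u - v) = c • (a * u - b * v) := by
    intro c a b u v
    rw [smul_mul_assoc, mul_smul_comm, ← smul_add]
    congr 1; ring
  exact this _ _ _ _ _

/-- **The monotone quantity.** -/
theorem H_anti (hC : IsDir C) (h : LC C n K δ g w) (hA : 0 < A) (hT1 : T ≤ 1)
    (hf : MemLp f 2 m) (hft : MemLp f ∞ m) (hf1 : MemLp f 1 m) (h0 : 0 ≤ f) :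
    AntitoneOn (fun r => I (kk h.meas m n K A δ r * C.P ((T - r) / 2) f) - ke n K A δ * I f * r)
      (Set.Ioc 0 T) := by
  have hk4 : ∀ r, MemLp (kk h.meas m n K A δ r) 2 m := by
    intro r
    obtain ⟨L, hL⟩ := (isCompact_Icc (a := (0 : ℝ)) (b := δ)).exists_bound_of_continuousOn
      (continuous_kt n K A δ r).continuousOn
    refine memLp_of_bound h.meas_set h.fin (L := L) ?_ ?_
    · filter_upwards [kk_ae (m := m) (n := n) (K := K) (A := A) (δ := δ) (s := r) h.meas] with x h1 h2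
      rw [h1]; exact hL _ ⟨h.nonneg x, le_of_lt h2⟩
    · filter_upwards [kk_ae (m := m) (n := n) (K := K) (A := A) (δ := δ) (s := r) h.meas] with x h1 h2
      rw [h1]; exact kt_eq_zero (not_lt.1 h2)
  have hP : ∀ r, MemLp (C.P ((T - r) / 2) f) 2 m := fun r => hC.P_mem2 _ hf
  have hder : ∀ s ∈ Set.Ioo 0 T, HasDerivAt
      (fun r => I (kk h.meas m n K A δ r * C.P ((T - r) / 2) f) - ke n K A δ * I f * r)
      (I (kk' h.meas m n K A δ s * C.P ((T - s) / 2) f)
        + 2⁻¹ * I (C.Γ (kk h.meas m n K A δ s) (C.P ((T - s) / 2) f)) - ke n K A δ * I f) s := by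
    intro s hs
    have h1 := H_deriv (A := A) hC h hA hs.1 (hs.2.le.trans hT1) hs.2 hf
    have h2 : HasDerivAt (fun r : ℝ => ke n K A δ * I f * r) (ke n K A δ * I f) s := by
      simpa using (hasDerivAt_id s).const_mul (ke n K A δ * I f)
    exact h1.sub h2
  refine antitoneOn_of_deriv_nonpos (convex_Ioc 0 T) ?_ ?_ ?_
  · -- continuity
    intro s hs
    have hsc : Tendsto (fun r => I ((kk h.meas m n K A δ r - kk h.meas m n K A δ s) ^ 2)) (𝓝 s) (𝓝 0) := by
      obtain ⟨L, hL0, hL⟩ := exists_kt_bound (n := n) (K := K) A h.δ_pos.le hs.1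
      have hD := h.meas_set
      have hfac : Fact (m {x | g x < δ} < ∞) := ⟨h.fin⟩
      have hb : ∀ᶠ r in 𝓝 s, I ((kk h.meas m n K A δ r - kk h.meas m n K A δ s) ^ 2)
          ≤ (L * |r - s|) ^ 2 * m.real {x | g x < δ} := by
        have hn : ∀ᶠ r in 𝓝 s, r ∈ Set.Icc (s / 2) (2 * s) :=
          Icc_mem_nhds (by linarith [hs.1]) (by linarith [hs.1])
        filter_upwards [hn] with r hr
        have h3 : ∫ x in {x | g x < δ}, (L * |r - s|) ^ 2 ∂m = (L * |r - s|) ^ 2 * m.real {x | g x < δ} := by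
          rw [setIntegral_const, smul_eq_mul, mul_comm]
        rw [← h3, ← integral_indicator hD]
        unfold I
        refine integral_mono_ae (int_of_mem (mem_sq (mem_sub (hk4 r) (hk4 s))))
          ((integrable_indicator_iff hD).2 (integrable_const _)) ?_
        filter_upwards [sq_ae (kk h.meas m n K A δ r - kk h.meas m n K A δ s),
          sub_ae (kk h.meas m n K A δ r) (kk h.meas m n K A δ s),
          kk_ae (m := m) (n := n) (K := K) (A := A) (δ := δ) (s := r) h.meas,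
          kk_ae (m := m) (n := n) (K := K) (A := A) (δ := δ) (s := s) h.meas] with x h1 h2 h5 h6
        rw [h1, h2, h5, h6]
        by_cases hx : g x < δ
        · rw [Set.indicator_of_mem (by exact hx)]
          rw [← sq_abs]
          exact pow_le_pow_left₀ (abs_nonneg _) (hL r hr (g x) (h.nonneg x)).1 2
        · rw [Set.indicator_of_notMem (by exact hx), kt_eq_zero (not_lt.1 hx), kt_eq_zero (not_lt.1 hx)]
          norm_num
      have hz : Tendsto (fun r : ℝ => (L * |r - s|) ^ 2 * m.real {x | g x < δ}) (𝓝 s) (𝓝 0) := by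
        have : Continuous fun r : ℝ => (L * |r - s|) ^ 2 * m.real {x | g x < δ} := by fun_prop
        have := this.tendsto s
        simpa using this
      exact tendsto_of_tendsto_of_tendsto_of_le_of_le' tendsto_const_nhds hz
        (Eventually.of_forall fun r => I_sq_nonneg _) hb
    have hcont : Tendsto (fun r => I ((C.P ((T - r) / 2) f - C.P ((T - s) / 2) f) ^ 2)) (𝓝 s) (𝓝 0) := by
      have h1 := hC.P_cont hf ((T - s) / 2)
      have h2 : Tendsto (fun r : ℝ => (T - r) / 2) (𝓝 s) (𝓝 ((T - s) / 2)) :=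
        Continuous.tendsto (by fun_prop) s
      exact h1.comp h2
    have h1 : Tendsto (fun r => I (kk h.meas m n K A δ r * C.P ((T - r) / 2) f)) (𝓝 s)
        (𝓝 (I (kk h.meas m n K A δ s * C.P ((T - s) / 2) f))) :=
      tendsto_I_mul hk4 (hk4 s) hP (hP s) hsc hcont
    have h2 : Tendsto (fun r : ℝ => ke n K A δ * I f * r) (𝓝 s) (𝓝 (ke n K A δ * I f * s)) :=
      Continuous.tendsto (by fun_prop) s
    exact ((h1.sub h2).mono_left nhdsWithin_le_nhds)
  · rw [interior_Ioc]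
    intro s hs
    exact (hder s hs).differentiableAt.differentiableWithinAt
  · rw [interior_Ioc]
    intro s hs
    rw [(hder s hs).deriv]
    have hs1 : s ≤ 1 := hs.2.le.trans hT1
    have hT : 0 < (T - s) / 2 := by linarith [hs.2]
    set φ := C.P ((T - s) / 2) f with hφ
    have hφA : φ ∈ C.A := ⟨hC.P_mem hT hf, hC.P_memTop hT.le hf hft⟩
    have hφ0 : 0 ≤ φ := hC.P_nonneg hT.le hf h0
    obtain ⟨hφ1, hφ1'⟩ := hC.P_L1_nonneg hT.le hf hf1 h0
    obtain ⟨k1, k2⟩ := kk_sub hC h hA hs.1 hs1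
    have h1 := k2 φ hφA hφ0
    have hφ2 : MemLp φ 2 m := hP s
    have hc1 : Continuous fun t : ℝ => kg n K A s t * kl n K s t := by unfold kg kl; fun_prop
    have hc2 : Continuous fun t : ℝ => kg n K A s δ * kl n K s δ := by fun_prop
    have e1 : I (kk' h.meas m n K A δ s * φ) = ∫ x in {x | g x < δ}, kg n K A s (g x) * kl n K s (g x) * φ x ∂m
        - ∫ x in {x | g x < δ}, kg n K A s δ * kl n K s δ * φ x ∂m := by
      rw [← integral_sub (h.integrable hφ2 hc1) (h.integrable hφ2 hc2), ← integral_indicator h.meas_set]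
      unfold I
      refine integral_congr_ae ?_
      filter_upwards [mul_ae (kk' h.meas m n K A δ s) φ,
        kk'_ae (m := m) (n := n) (K := K) (A := A) (δ := δ) (s := s) h.meas] with x h2 h3
      rw [h2, h3]
      by_cases hx : g x < δ
      · rw [Set.indicator_of_mem (by exact hx), kt', min_eq_left hx.le]; ring
      · rw [Set.indicator_of_notMem (by exact hx), kt'_eq_zero (not_lt.1 hx)]; ring
    have e2 : -∫ x in {x | g x < δ}, kg n K A s δ * kl n K s δ * φ x ∂m ≤ ke n K A δ * I f := by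
      rw [← integral_neg]
      have h2 : ∫ x in {x | g x < δ}, -(kg n K A s δ * kl n K s δ * φ x) ∂m
          ≤ ∫ x in {x | g x < δ}, ke n K A δ * φ x ∂m := by
        refine setIntegral_mono_on_ae (h.integrable hφ2 hc2).neg
          (h.integrable hφ2 (F := fun _ => ke n K A δ) continuous_const) h.meas_set ?_
        filter_upwards [nonneg_iff_ae.1 hφ0] with x h3 h4
        have := mul_le_mul_of_nonneg_right (ke_spec (n := n) (K := K) hA h.δ_pos hs.1 hs1) h3
        linarith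
      refine h2.trans ?_
      have h3 : ∫ x in {x | g x < δ}, ke n K A δ * φ x ∂m ≤ ∫ x, ke n K A δ * φ x ∂m := by
        refine setIntegral_le_integral ((int_of_mem hφ1).const_mul _) ?_
        filter_upwards [nonneg_iff_ae.1 hφ0] with x h4
        exact mul_nonneg (ke_nonneg hA h.δ_pos) h4
      refine h3.trans ?_
      rw [integral_const_mul]
      exact mul_le_mul_of_nonneg_left hφ1' (ke_nonneg hA h.δ_pos)
    rw [e1]
    linarith

end H339

end Vale.Agent.P233
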