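import Vale.Agent.P233.Bd3.B1
import Mathlib.Analysis.Normed.Module.HahnBanach

/-!
# Lewy–Stampacchia for two obstacles, in an abstract Dirichlet calculus
-/

set_option linter.all false

open MeasureTheory Filter Topology
open scoped ENNReal NNReal InnerProductSpace

namespace Vale.Agent.P233

namespace LS

/-- the distance of `s` to `[a,b]` -/
noncomputable def pd (a b s : ℝ) : ℝ := max (s - b) 0 + max (a - s) 0

theorem pd_nonneg (a b s : ℝ) : 0 ≤ pd a b s := add_nonneg (le_max_right _ _) (le_max_right _ _)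

theorem pd_le {a b : ℝ} (h : a ≤ b) (s : ℝ) : pd a b s ≤ |s - a| := by
  unfold pd
  rcases le_total s a with h1 | h1
  · rw [max_eq_right (by linarith), max_eq_left (by linarith), abs_of_nonpos (by linarith)]; linarith
  · rw [abs_of_nonneg (by linarith), max_eq_right (show a - s ≤ 0 by linarith)]
    have : max (s - b) 0 ≤ s - a := max_le (by linarith) (by linarith)
    linarith

theorem pd_lip1 (a b s t : ℝ) : pd a b s - pd a b t ≤ |s - t| := by
  unfold pd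
  have h1 : max (s - b) 0 ≤ max (t - b) 0 + max (s - t) 0 :=
    max_le (by linarith [le_max_left (t - b) 0, le_max_left (s - t) 0])
      (by linarith [le_max_right (t - b) 0, le_max_right (s - t) 0])
  have h2 : max (a - s) 0 ≤ max (a - t) 0 + max (t - s) 0 :=
    max_le (by linarith [le_max_left (a - t) 0, le_max_left (t - s) 0])
      (by linarith [le_max_right (a - t) 0, le_max_right (t - s) 0])
  have h3 : max (s - t) 0 + max (t - s) 0 = |s - t| := by
    rcases le_total s t with h | h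
    · rw [max_eq_right (by linarith), max_eq_left (by linarith), abs_of_nonpos (by linarith)]; ring
    · rw [max_eq_left (by linarith), max_eq_right (by linarith), abs_of_nonneg (by linarith)]; ring
  linarith

theorem pd_lip (a b s t : ℝ) : |pd a b s - pd a b t| ≤ |s - t| := by
  rw [abs_le]
  refine ⟨?_, pd_lip1 a b s t⟩
  have := pd_lip1 a b t s
  rw [abs_sub_comm] at this
  linarith

theorem pd_mid (a b s t : ℝ) : pd a b ((s + t) / 2) ≤ (pd a b s + pd a b t) / 2 := by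
  unfold pd
  have h1 : max ((s + t) / 2 - b) 0 ≤ (max (s - b) 0 + max (t - b) 0) / 2 :=
    max_le (by linarith [le_max_left (s - b) 0, le_max_left (t - b) 0])
      (by linarith [le_max_right (s - b) 0, le_max_right (t - b) 0])
  have h2 : max (a - (s + t) / 2) 0 ≤ (max (a - s) 0 + max (a - t) 0) / 2 :=
    max_le (by linarith [le_max_left (a - s) 0, le_max_left (a - t) 0])
      (by linarith [le_max_right (a - s) 0, le_max_right (a - t) 0])
  linarith

theorem pd_down {a b s d : ℝ} (h : a ≤ b) (hd : 0 ≤ d) (hs : d ≤ max (s - b) 0) :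
    pd a b (s - d) = pd a b s - d := by
  unfold pd
  rcases le_total (s - b) 0 with h1 | h1
  · rw [max_eq_right h1] at hs
    have : d = 0 := le_antisymm hs hd
    subst this; simp
  · rw [max_eq_left h1] at hs
    rw [max_eq_left (show (0 : ℝ) ≤ s - d - b by linarith), max_eq_left h1,
      max_eq_right (show a - (s - d) ≤ 0 by linarith), max_eq_right (show a - s ≤ 0 by linarith)]
    ring

theorem pd_up {a b s d : ℝ} (h : a ≤ b) (hd : 0 ≤ d) (hs : d ≤ max (a - s) 0) :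
    pd a b (s + d) = pd a b s - d := by
  unfold pd
  rcases le_total (a - s) 0 with h1 | h1
  · rw [max_eq_right h1] at hs
    have : d = 0 := le_antisymm hs hd
    subst this; simp
  · rw [max_eq_left h1] at hs
    rw [max_eq_left (show (0 : ℝ) ≤ a - (s + d) by linarith), max_eq_left h1,
      max_eq_right (show s + d - b ≤ 0 by linarith), max_eq_right (show s - b ≤ 0 by linarith)]
    ring

theorem pd_continuous : Continuous fun p : ℝ × ℝ × ℝ => pd p.1 p.2.1 p.2.2 := by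
  unfold pd; fun_prop

/-- the test function `s₊²/(1+s₊²)` -/
noncomputable def psi (s : ℝ) : ℝ := (max s 0) ^ 2 / (1 + (max s 0) ^ 2)
noncomputable def psi' (s : ℝ) : ℝ := 2 * max s 0 / (1 + (max s 0) ^ 2) ^ 2

theorem psi_nonneg (s : ℝ) : 0 ≤ psi s := by unfold psi; positivity
theorem psi'_nonneg (s : ℝ) : 0 ≤ psi' s := by
  unfold psi'; have := le_max_right s 0; positivity
theorem psi_zero : psi 0 = 0 := by unfold psi; simp
theorem psi_le (s : ℝ) : psi s ≤ max s 0 := by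
  unfold psi
  have h := le_max_right s 0
  rw [div_le_iff₀ (by positivity)]
  nlinarith [sq_nonneg (max s 0 - 1), mul_nonneg h (sq_nonneg (max s 0 - 1))]
theorem psi_pos {s : ℝ} (h : 0 < s) : 0 < psi s := by
  unfold psi; rw [max_eq_left h.le]; positivity
theorem psi_cont : Continuous psi := by
  unfold psi
  refine Continuous.div (by fun_prop) (by fun_prop) fun s => by positivity
theorem psi'_cont : Continuous psi' := by
  unfold psi'
  refine Continuous.div (by fun_prop) (by fun_prop) fun s => by positivity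

theorem hasDerivAt_max_sq (s : ℝ) : HasDerivAt (fun s : ℝ => (max s 0) ^ 2) (2 * max s 0) s := by
  rcases lt_trichotomy s 0 with h | h | h
  · have h1 : HasDerivAt (fun _ : ℝ => (0 : ℝ)) 0 s := hasDerivAt_const _ _
    rw [max_eq_right h.le, mul_zero]
    refine h1.congr_of_eventuallyEq ?_
    filter_upwards [Iio_mem_nhds h] with t ht
    rw [max_eq_right (le_of_lt ht)]; simp
  · subst h
    rw [max_self, mul_zero, hasDerivAt_iff_isLittleO_nhds_zero]
    simp only [zero_add, max_self, smul_zero, sub_zero, ne_eq, OfNat.ofNat_ne_zero, not_false_eq_true,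
      zero_pow]
    rw [Asymptotics.isLittleO_iff]
    intro c hc
    filter_upwards [Metric.ball_mem_nhds (0 : ℝ) hc] with t ht
    rw [Metric.mem_ball, dist_zero_right, Real.norm_eq_abs] at ht
    rw [Real.norm_eq_abs, Real.norm_eq_abs, abs_of_nonneg (sq_nonneg _)]
    have h1 : max t 0 ≤ |t| := max_le (le_abs_self t) (abs_nonneg t)
    have h2 := le_max_right t 0
    nlinarith [abs_nonneg t]
  · have h1 : HasDerivAt (fun t : ℝ => t ^ 2) (2 * s) s := by
      simpa using hasDerivAt_pow 2 s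
    rw [max_eq_left h.le]
    refine h1.congr_of_eventuallyEq ?_
    filter_upwards [Ioi_mem_nhds h] with t ht
    rw [max_eq_left (le_of_lt ht)]

theorem psi_deriv (s : ℝ) : HasDerivAt psi (psi' s) s := by
  have h1 := hasDerivAt_max_sq s
  have h2 := h1.div (h1.const_add 1) (by positivity)
  have h3 : psi' s = (2 * max s 0 * (1 + (max s 0) ^ 2) - (max s 0) ^ 2 * (2 * max s 0))
      / (1 + (max s 0) ^ 2) ^ 2 := by
    unfold psi'; congr 1; ring
  rw [h3]
  exact h2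

theorem psi'_bdd (s : ℝ) : |psi' s| ≤ 1 := by
  rw [abs_of_nonneg (psi'_nonneg s)]
  unfold psi'
  have h := le_max_right s 0
  rw [div_le_one (by positivity)]
  nlinarith [sq_nonneg (max s 0 - 1), sq_nonneg (max s 0), sq_nonneg ((max s 0) ^ 2)]

end LS

variable {M : Type*} [MeasurableSpace M] {m : Measure M} {C : Calc m}

theorem toLp_coe_eq {f : M →ₘ[m] ℝ} (hf : MemLp f 2 m) :
    (hf.toLp : Lp ℝ 2 m) = ⟨f, Lp.mem_Lp_iff_memLp.2 hf⟩ :=
  Subtype.ext (AEEqFun.mk_coeFn f)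

/-- a functional on `W` that is bounded in `L²` is given by a function in `L²` -/
theorem IsDir.exists_rep (hC : IsDir C) {ℓ : (M →ₘ[m] ℝ) → ℝ} {B : ℝ}
    (hadd : ∀ f ∈ C.W, ∀ g ∈ C.W, ℓ (f + g) = ℓ f + ℓ g)
    (hsmul : ∀ c : ℝ, ∀ f ∈ C.W, ℓ (c • f) = c * ℓ f)
    (hb : ∀ f ∈ C.W, |ℓ f| ≤ B * √(I (f ^ 2))) :
    ∃ G : M →ₘ[m] ℝ, MemLp G 2 m ∧ ∀ g ∈ C.W, ℓ g = I (G * g) := by
  let T : hC.hsub →ₗ[ℝ] Lp ℝ 2 m :=
    { toFun := fun x => ⟨x.1, Lp.mem_Lp_iff_memLp.2 (hC.memLp x.1 x.2)⟩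
      map_add' := fun x y => rfl
      map_smul' := fun c x => rfl }
  have hTn : ∀ x : hC.hsub, ‖T x‖ = √(I (x.1 ^ 2)) := fun x => by
    rw [I_sq_eq_norm (hC.memLp x.1 x.2), toLp_coe_eq, Real.sqrt_sq (norm_nonneg _)]
    rfl
  have hinj : Function.Injective T := fun x y h => by
    have h' : (T x).1 = (T y).1 := by rw [h]
    exact Subtype.ext h'
  obtain ⟨Ti, hTi⟩ := T.exists_leftInverse_of_injective (LinearMap.ker_eq_bot.2 hinj)
  let ℓ0 : hC.hsub →ₗ[ℝ] ℝ :=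
    { toFun := fun x => ℓ x.1
      map_add' := fun x y => hadd _ x.2 _ y.2
      map_smul' := fun c x => hsmul c _ x.2 }
  let f0 : LinearMap.range T →ₗ[ℝ] ℝ := (ℓ0 ∘ₗ Ti).domRestrict (LinearMap.range T)
  have hf0 : ∀ x : hC.hsub, ∀ h : T x ∈ LinearMap.range T, f0 ⟨T x, h⟩ = ℓ x.1 := fun x h => by
    show ℓ0 (Ti (T x)) = ℓ0 x
    congr 1
    exact LinearMap.congr_fun hTi x
  let f1 : LinearMap.range T →L[ℝ] ℝ := f0.mkContinuous B (by
    rintro ⟨y, hy⟩
    obtain ⟨x, hx⟩ := LinearMap.mem_range.1 hy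
    subst hx
    rw [hf0 x hy, Real.norm_eq_abs]
    have h1 : ‖(⟨T x, hy⟩ : LinearMap.range T)‖ = √(I (x.1 ^ 2)) := hTn x
    rw [h1]
    exact hb _ x.2)
  obtain ⟨g, hg, -⟩ := exists_extension_norm_eq (LinearMap.range T) f1
  let G := (InnerProductSpace.toDual ℝ (Lp ℝ 2 m)).symm g
  have hG : MemLp (G : M →ₘ[m] ℝ) 2 m := Lp.memLp G
  refine ⟨G, hG, fun h hh => ?_⟩
  have h1 : ⟪G, T ⟨h, hh⟩⟫_ℝ = g (T ⟨h, hh⟩) := InnerProductSpace.toDual_symm_apply
  have h2 : g (T ⟨h, hh⟩) = ℓ h := (hg ⟨T ⟨h, hh⟩, LinearMap.mem_range_self T _⟩).trans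
    (hf0 ⟨h, hh⟩ _)
  rw [h2] at h1
  rw [← h1, I_mul_eq_inner hG (hC.memLp h hh), toLp_coe_eq, toLp_coe_eq]
  rfl

namespace LS

variable {f g h k φ u η ζ : M →ₘ[m] ℝ}

/-- the inner product of `W` -/
noncomputable def ipW (C : Calc m) (f g : M →ₘ[m] ℝ) : ℝ := I (f * g) + I (C.Γ f g)

theorem ipW_add_right (hC : IsDir C) (hf : f ∈ C.W) (hg : g ∈ C.W) (hh : h ∈ C.W) :
    ipW C f (g + h) = ipW C f g + ipW C f h := by
  unfold ipW
  rw [hC.Γ_add_right hf hg hh, mul_add, I_add (mem_mul_22 (hC.memLp f hf) (hC.memLp g hg))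
    (mem_mul_22 (hC.memLp f hf) (hC.memLp h hh)), I_add (hC.Γ_mem1 hf hg) (hC.Γ_mem1 hf hh)]
  ring

theorem ipW_smul_right (hC : IsDir C) (c : ℝ) (hf : f ∈ C.W) (hg : g ∈ C.W) :
    ipW C f (c • g) = c * ipW C f g := by
  unfold ipW
  rw [hC.Γ_smul_right c hf hg, mul_smul_comm, I_smul, I_smul]; ring

theorem ipW_sub_left (hC : IsDir C) (hf : f ∈ C.W) (hg : g ∈ C.W) (hh : h ∈ C.W) :
    ipW C (f - g) h = ipW C f h - ipW C g h := by
  unfold ipW
  rw [hC.Γ_sub_left hf hg hh, sub_mul, I_sub (mem_mul_22 (hC.memLp f hf) (hC.memLp h hh))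
    (mem_mul_22 (hC.memLp g hg) (hC.memLp h hh)), I_sub (hC.Γ_mem1 hf hh) (hC.Γ_mem1 hg hh)]
  ring

theorem nrm2_add_smul (hC : IsDir C) (hf : f ∈ C.W) (hg : g ∈ C.W) (t : ℝ) :
    C.nrm2 (f + t • g) = C.nrm2 f + 2 * t * ipW C f g + t ^ 2 * C.nrm2 g := by
  have e : (f + t • g) ^ 2 = f ^ 2 + (2 * t) • (f * g) + (t ^ 2) • g ^ 2 := by
    have : (f + t • g) ^ 2 = f * f + (t • (f * g) + t • (g * f)) + t • t • (g * g) := by
      simp only [sq, add_mul, mul_add, smul_add, smul_mul_assoc, mul_smul_comm]; abel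
    rw [this, mul_comm g f, ← two_smul ℝ (t • (f * g)), smul_smul, smul_smul, sq, sq, sq]
  have hf2 := hC.memLp f hf
  have hg2 := hC.memLp g hg
  unfold Calc.nrm2 ipW
  rw [e, hC.Γ_expand t hf hg, I_add (mem_add (mem_sq hf2) (mem_smul _ (mem_mul_22 hf2 hg2)))
    (mem_smul _ (mem_sq hg2)), I_add (mem_sq hf2) (mem_smul _ (mem_mul_22 hf2 hg2)),
    I_add (mem_add (hC.mem1 f hf) (mem_smul _ (hC.Γ_mem1 hf hg))) (mem_smul _ (hC.mem1 g hg)),
    I_add (hC.mem1 f hf) (mem_smul _ (hC.Γ_mem1 hf hg)), I_smul, I_smul, I_smul, I_smul]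
  ring

theorem ipW_abs_le (hC : IsDir C) (hf : f ∈ C.W) (hg : g ∈ C.W) :
    |ipW C f g| ≤ 2 * (√(C.nrm2 f) * √(C.nrm2 g)) := by
  unfold ipW
  have h1 := I_abs_le (hC.memLp f hf) (hC.memLp g hg)
  have h2 := hC.E_abs_le hf hg
  have a1 := Real.sqrt_le_sqrt (hC.I_sq_le_nrm2 hf)
  have a2 := Real.sqrt_le_sqrt (hC.I_sq_le_nrm2 hg)
  have a3 := Real.sqrt_le_sqrt (IsDir.E_le_nrm2 hC f)
  have a4 := Real.sqrt_le_sqrt (IsDir.E_le_nrm2 hC g)
  have b1 : √(I (f ^ 2)) * √(I (g ^ 2)) ≤ √(C.nrm2 f) * √(C.nrm2 g) := by gcongr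
  have b2 : √(I (C.Γ f f)) * √(I (C.Γ g g)) ≤ √(C.nrm2 f) * √(C.nrm2 g) := by gcongr
  have := abs_add_le (I (f * g)) (I (C.Γ f g))
  linarith

/-- the penalty -/
noncomputable def pen (k φ u η : M →ₘ[m] ℝ) : ℝ := ∫ x, k x * pd (φ x) (u x) (η x) ∂m

theorem pd_aesm (φ u η : M →ₘ[m] ℝ) :
    AEStronglyMeasurable (fun x => pd (φ x) (u x) (η x)) m :=
  pd_continuous.comp_aestronglyMeasurable
    (φ.aestronglyMeasurable.prodMk (u.aestronglyMeasurable.prodMk η.aestronglyMeasurable))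

theorem pen_int (hk : MemLp k 2 m) (hφ : MemLp φ 2 m) (hη : MemLp η 2 m) (hle : φ ≤ u) :
    Integrable (fun x => k x * pd (φ x) (u x) (η x)) m := by
  have h1 : MemLp (fun x => pd (φ x) (u x) (η x)) 2 m := by
    refine (hη.sub hφ).mono (pd_aesm φ u η) ?_
    filter_upwards [le_iff_ae.1 hle] with x hx
    rw [Real.norm_eq_abs, abs_of_nonneg (pd_nonneg _ _ _)]
    exact pd_le hx _
  exact hk.integrable_mul h1

theorem abs_int (hk : MemLp k 2 m) (hg : MemLp g 2 m) : Integrable (fun x => k x * |g x|) m :=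
  hk.integrable_mul hg.abs

theorem int_abs_le (hk : MemLp k 2 m) (hg : MemLp g 2 m) (h0 : 0 ≤ k) :
    ∫ x, k x * |g x| ∂m ≤ √(I (k ^ 2)) * √(I (g ^ 2)) := by
  have h1 : MemLp (AEEqFun.comp (fun t : ℝ => |t|) continuous_abs g : M →ₘ[m] ℝ) 2 m :=
    (memLp_congr_ae (AEEqFun.coeFn_comp _ continuous_abs g)).2 hg.abs
  have h2 := (le_abs_self _).trans (I_abs_le hk h1)
  have h3 : I (k * AEEqFun.comp (fun t : ℝ => |t|) continuous_abs g) = ∫ x, k x * |g x| ∂m := by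
    refine integral_congr_ae ?_
    filter_upwards [mul_ae k (AEEqFun.comp (fun t : ℝ => |t|) continuous_abs g),
      AEEqFun.coeFn_comp _ continuous_abs g] with x hx hx2
    rw [hx, hx2]; rfl
  have h4 : I ((AEEqFun.comp (fun t : ℝ => |t|) continuous_abs g) ^ 2) = I (g ^ 2) := by
    refine integral_congr_ae ?_
    filter_upwards [sq_ae (AEEqFun.comp (fun t : ℝ => |t|) continuous_abs g), sq_ae g,
      AEEqFun.coeFn_comp _ continuous_abs g] with x hx hx2 hx3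
    rw [hx, hx2, hx3]; simp
  rw [h3, h4] at h2
  exact h2

theorem pen_le (hk : MemLp k 2 m) (hφ : MemLp φ 2 m) (hη : MemLp η 2 m) (hζ : MemLp ζ 2 m)
    (hle : φ ≤ u) (h0 : 0 ≤ k) (hd : MemLp g 2 m) (hg : ∀ᵐ x ∂m, η x = ζ x + g x) :
    pen k φ u η ≤ pen k φ u ζ + ∫ x, k x * |g x| ∂m := by
  unfold pen
  rw [← integral_add (pen_int hk hφ hζ hle) (abs_int hk hd)]
  refine integral_mono_ae (pen_int hk hφ hη hle) ((pen_int hk hφ hζ hle).add (abs_int hk hd)) ?_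
  filter_upwards [hg, nonneg_iff_ae.1 h0] with x hx hx0
  have h1 := pd_lip1 (φ x) (u x) (η x) (ζ x)
  rw [hx, add_sub_cancel_left] at h1
  show k x * pd (φ x) (u x) (η x) ≤ k x * pd (φ x) (u x) (ζ x) + k x * |g x|
  rw [hx, ← mul_add]
  exact mul_le_mul_of_nonneg_left (by linarith) hx0

theorem pen_mid (hk : MemLp k 2 m) (hφ : MemLp φ 2 m) (hf : MemLp f 2 m) (hη : MemLp η 2 m)
    (hζ : MemLp ζ 2 m) (hle : φ ≤ u) (h0 : 0 ≤ k) (hg : ∀ᵐ x ∂m, f x = (η x + ζ x) / 2) :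
    pen k φ u f ≤ (pen k φ u η + pen k φ u ζ) / 2 := by
  unfold pen
  rw [← integral_add (pen_int hk hφ hη hle) (pen_int hk hφ hζ hle), ← integral_div]
  refine integral_mono_ae (pen_int hk hφ hf hle)
    (((pen_int hk hφ hη hle).add (pen_int hk hφ hζ hle)).div_const 2) ?_
  filter_upwards [hg, nonneg_iff_ae.1 h0] with x hx hx0
  have h1 := pd_mid (φ x) (u x) (η x) (ζ x)
  show k x * pd (φ x) (u x) (f x) ≤
    (k x * pd (φ x) (u x) (η x) + k x * pd (φ x) (u x) (ζ x)) / 2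
  rw [hx]
  have := mul_le_mul_of_nonneg_left h1 hx0
  linarith

/-- the functional -/
noncomputable def Fn (C : Calc m) (k φ u η : M →ₘ[m] ℝ) : ℝ := C.nrm2 η / 2 + pen k φ u η

theorem pen_nonneg (h0 : 0 ≤ k) : 0 ≤ pen k φ u η :=
  integral_nonneg_of_ae (by
    filter_upwards [nonneg_iff_ae.1 h0] with x hx
    exact mul_nonneg hx (pd_nonneg _ _ _))

theorem exists_min (hC : IsDir C) (hk : MemLp k 2 m) (h0 : 0 ≤ k) (hφ : MemLp φ 2 m)
    (hle : φ ≤ u) : ∃ η ∈ C.W, ∀ ζ ∈ C.W, Fn C k φ u η ≤ Fn C k φ u ζ := by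
  set S : Set ℝ := {r | ∃ ζ ∈ C.W, Fn C k φ u ζ = r} with hS
  have hbd : BddBelow S := ⟨0, by
    rintro r ⟨ζ, hζ, rfl⟩
    unfold Fn
    have := hC.nrm2_nonneg hζ
    have := pen_nonneg (φ := φ) (u := u) (η := ζ) h0
    positivity⟩
  have hne : S.Nonempty := ⟨_, 0, hC.zero_mem, rfl⟩
  have hex : ∀ n : ℕ, ∃ ζ ∈ C.W, Fn C k φ u ζ < sInf S + 1 / ((n : ℝ) + 1) := fun n => by
    obtain ⟨r, ⟨ζ, hζ, rfl⟩, hr⟩ := exists_lt_of_csInf_lt hne
      (lt_add_of_pos_right (sInf S) (show (0 : ℝ) < 1 / ((n : ℝ) + 1) by positivity))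
    exact ⟨ζ, hζ, hr⟩
  choose v hv hvF using hex
  have hge : ∀ ζ ∈ C.W, sInf S ≤ Fn C k φ u ζ := fun ζ hζ => csInf_le hbd ⟨ζ, hζ, rfl⟩
  have hpar : ∀ a ∈ C.W, ∀ b ∈ C.W, C.nrm2 (a - b) / 8 ≤
      (Fn C k φ u a + Fn C k φ u b) / 2 - sInf S := by
    intro a ha b hb
    have hd : b - a ∈ C.W := hC.sub_mem hb ha
    have h1 := nrm2_add_smul hC ha hd 1
    have h2 := nrm2_add_smul hC ha hd (1 / 2)
    rw [one_smul, add_sub_cancel] at h1
    have hm : a + (1 / 2 : ℝ) • (b - a) ∈ C.W := hC.add_mem _ ha _ (hC.smul_mem _ _ hd)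
    have h3 := hge _ hm
    have h4 : pen k φ u (a + (1 / 2 : ℝ) • (b - a)) ≤ (pen k φ u a + pen k φ u b) / 2 := by
      refine pen_mid hk hφ (hC.memLp _ hm) (hC.memLp _ ha) (hC.memLp _ hb) hle h0 ?_
      filter_upwards [add_ae a ((1 / 2 : ℝ) • (b - a)), smul_ae (b - a) (1 / 2), sub_ae b a]
        with x h5 h6 h7
      rw [h5, h6, h7]; ring
    rw [hC.nrm2_sub_comm ha hb]
    unfold Fn at h3 ⊢
    rw [h2] at h3
    linarith
  obtain ⟨f, hf, hlim⟩ := hC.complete v hv (by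
    intro ε hε
    obtain ⟨N, hN⟩ := exists_nat_gt (8 / ε)
    refine ⟨N, fun n hn j hj => ?_⟩
    have h1 := hpar _ (hv n) _ (hv j)
    have h2 := hvF n
    have h3 := hvF j
    have hN0 : (0 : ℝ) < N := lt_trans (by positivity) hN
    have h4 : 1 / ((n : ℝ) + 1) ≤ 1 / (N : ℝ) :=
      one_div_le_one_div_of_le hN0 (by have : (N : ℝ) ≤ n := by exact_mod_cast hn
                                       linarith)
    have h5 : 1 / ((j : ℝ) + 1) ≤ 1 / (N : ℝ) :=
      one_div_le_one_div_of_le hN0 (by have : (N : ℝ) ≤ j := by exact_mod_cast hj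
                                       linarith)
    have h6 : 1 / (N : ℝ) < ε / 8 := by
      rw [div_lt_div_iff₀ hN0 (by norm_num)]
      rw [div_lt_iff₀ hε] at hN
      linarith
    linarith)
  refine ⟨f, hf, fun ζ hζ => le_trans ?_ (hge ζ hζ)⟩
  have hle2 : ∀ n : ℕ, Fn C k φ u f ≤ sInf S + 1 / ((n : ℝ) + 1) +
      (2 * (√(C.nrm2 f) * √(C.nrm2 (v n - f))) + √(I (k ^ 2)) * √(C.nrm2 (v n - f))) := by
    intro n
    have hd : v n - f ∈ C.W := hC.sub_mem (hv n) hf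
    have h1 := nrm2_add_smul hC hf hd 1
    rw [one_smul, add_sub_cancel] at h1
    have h2 := ipW_abs_le hC hf hd
    have h3 := hC.nrm2_nonneg hd
    have hd' : f - v n ∈ C.W := hC.sub_mem hf (hv n)
    have h4 : pen k φ u f ≤ pen k φ u (v n) + ∫ x, k x * |(f - v n : M →ₘ[m] ℝ) x| ∂m := by
      refine pen_le hk hφ (hC.memLp _ hf) (hC.memLp _ (hv n)) hle h0 (hC.memLp _ hd') ?_
      filter_upwards [sub_ae f (v n)] with x hx
      rw [hx]; ring
    have h5 := int_abs_le hk (hC.memLp _ hd') h0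
    have h6 : √(I ((f - v n) ^ 2)) ≤ √(C.nrm2 (v n - f)) := by
      rw [hC.nrm2_sub_comm (hv n) hf]
      exact Real.sqrt_le_sqrt (hC.I_sq_le_nrm2 hd')
    have h7 := mul_le_mul_of_nonneg_left h6 (Real.sqrt_nonneg (I (k ^ 2)))
    have h8 := (neg_abs_le _).trans' (neg_le_neg h2)
    have h9 := hvF n
    unfold Fn at h9 ⊢
    linarith
  have hz : Tendsto (fun n => √(C.nrm2 (v n - f))) atTop (𝓝 0) := by
    simpa [Function.comp_def] using (Real.continuous_sqrt.tendsto 0).comp hlim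
  have hlim2 : Tendsto (fun n : ℕ => sInf S + 1 / ((n : ℝ) + 1) +
      (2 * (√(C.nrm2 f) * √(C.nrm2 (v n - f))) + √(I (k ^ 2)) * √(C.nrm2 (v n - f)))) atTop
      (𝓝 (sInf S + 0 + (2 * (√(C.nrm2 f) * 0) + √(I (k ^ 2)) * 0))) :=
    (tendsto_const_nhds.add tendsto_one_div_add_atTop_nhds_zero_nat).add
      (((hz.const_mul _).const_mul 2).add (hz.const_mul _))
  have := ge_of_tendsto' hlim2 hle2
  simpa using this

/-- first variation -/
theorem first_var (hC : IsDir C) (hk : MemLp k 2 m) (h0 : 0 ≤ k) (hφ : MemLp φ 2 m)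
    (hle : φ ≤ u) (hη : η ∈ C.W) (hmin : ∀ ζ ∈ C.W, Fn C k φ u η ≤ Fn C k φ u ζ) (hg : g ∈ C.W) :
    |ipW C η g| ≤ ∫ x, k x * |g x| ∂m := by
  have key : ∀ h ∈ C.W, -(∫ x, k x * |h x| ∂m) ≤ ipW C η h := by
    intro h hh
    have hn := hC.nrm2_nonneg hh
    refine le_of_forall_pos_le_add fun ε hε => ?_
    set t : ℝ := ε / (C.nrm2 h + 1) with ht
    have ht0 : 0 < t := by positivity
    have h1 := hmin _ (hC.add_mem _ hη _ (hC.smul_mem t _ hh))
    have h2 : pen k φ u (η + t • h) ≤ pen k φ u η + ∫ x, k x * |(t • h : M →ₘ[m] ℝ) x| ∂m := by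
      refine pen_le hk hφ (hC.memLp _ (hC.add_mem _ hη _ (hC.smul_mem t _ hh)))
        (hC.memLp _ hη) hle h0 (hC.memLp _ (hC.smul_mem t _ hh)) ?_
      filter_upwards [add_ae η (t • h)] with x hx
      rw [hx]
    have h3 : ∫ x, k x * |(t • h : M →ₘ[m] ℝ) x| ∂m = t * ∫ x, k x * |h x| ∂m := by
      rw [← integral_const_mul]
      refine integral_congr_ae ?_
      filter_upwards [smul_ae h t] with x hx
      rw [hx, abs_mul, abs_of_pos ht0]; ring
    have h4 := nrm2_add_smul hC hη hh t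
    unfold Fn at h1
    rw [h4] at h1
    rw [h3] at h2
    have h5 : 0 ≤ t * (ipW C η h + (∫ x, k x * |h x| ∂m) + t * C.nrm2 h / 2) := by linarith
    have h6 := nonneg_of_mul_nonneg_right h5 ht0
    have h7 : t * C.nrm2 h ≤ ε := by
      rw [ht, div_mul_eq_mul_div, div_le_iff₀ (by positivity)]
      nlinarith
    linarith
  rw [abs_le]
  refine ⟨key g hg, ?_⟩
  have h1 := key _ (hC.neg_mem hg)
  have h2 : ∫ x, k x * |(-g : M →ₘ[m] ℝ) x| ∂m = ∫ x, k x * |g x| ∂m := by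
    refine integral_congr_ae ?_
    filter_upwards [neg_ae g] with x hx
    rw [hx, abs_neg]
  have h3 : ipW C η (-g) = -ipW C η g := by
    have := ipW_smul_right hC (-1) hη hg
    rw [neg_smul, one_smul] at this
    linarith
  rw [h2, h3] at h1
  linarith

/-- one-sided variation towards `[φ,u]`: the penalty drops with slope `k` -/
theorem var_down (hC : IsDir C) (hη : η ∈ C.W) (hmin : ∀ ζ ∈ C.W, Fn C k φ u η ≤ Fn C k φ u ζ)
    (hk : MemLp k 2 m) (hφ : MemLp φ 2 m) (hle : φ ≤ u) {w : M →ₘ[m] ℝ} (hw : w ∈ C.W) {s : ℝ}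
    (hs : ∀ t : ℝ, 0 ≤ t → t ≤ 1 → ∀ᵐ x ∂m, pd (φ x) (u x) (η x + t * (s * w x))
      = pd (φ x) (u x) (η x) - t * w x) :
    0 ≤ s * ipW C η w - I (k * w) := by
  have hn := hC.nrm2_nonneg hw
  have hsw : s • w ∈ C.W := hC.smul_mem s _ hw
  have hn2 := hC.nrm2_nonneg hsw
  refine le_of_forall_pos_le_add fun ε hε => ?_
  set t : ℝ := min 1 (ε / (C.nrm2 (s • w) + 1)) with ht
  have ht0 : 0 < t := lt_min one_pos (by positivity)
  have ht1 : t ≤ 1 := min_le_left _ _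
  have h1 := hmin _ (hC.add_mem _ hη _ (hC.smul_mem t _ hsw))
  have h2 : pen k φ u (η + t • s • w) = pen k φ u η - t * I (k * w) := by
    unfold pen I
    rw [← integral_const_mul, ← integral_sub (pen_int hk hφ (hC.memLp _ hη) hle)
      ((int_of_mem (mem_mul_22 hk (hC.memLp _ hw))).const_mul t)]
    refine integral_congr_ae ?_
    filter_upwards [hs t ht0.le ht1, add_ae η (t • s • w), smul_ae (s • w) t, smul_ae w s,
      mul_ae k w] with x h3 h4 h5 h6 h7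
    rw [h4, h5, h6, h3, h7]; ring
  have h4 := nrm2_add_smul hC hη hsw t
  unfold Fn at h1
  rw [h4, h2, ipW_smul_right hC s hη hw] at h1
  have h5 : 0 ≤ t * (s * ipW C η w - I (k * w) + t * C.nrm2 (s • w) / 2) := by linarith
  have h6 := nonneg_of_mul_nonneg_right h5 ht0
  have h7 : t * C.nrm2 (s • w) ≤ ε := by
    have : t ≤ ε / (C.nrm2 (s • w) + 1) := min_le_right _ _
    calc t * C.nrm2 (s • w) ≤ ε / (C.nrm2 (s • w) + 1) * C.nrm2 (s • w) := by gcongr
      _ ≤ ε := by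
        rw [div_mul_eq_mul_div, div_le_iff₀ (by positivity)]
        nlinarith
  linarith

/-- `w = ψ(f)` -/
theorem exists_psi (hC : IsDir C) (hf : f ∈ C.W) : ∃ w ∈ C.W, (∀ᵐ x ∂m, w x = psi (f x)) ∧
    0 ≤ I (C.Γ f w) := by
  obtain ⟨h1, h2⟩ := hC.chain f hf psi psi' psi_cont psi'_cont psi_deriv psi_zero ⟨1, psi'_bdd⟩
  refine ⟨_, h1, AEEqFun.coeFn_comp _ psi_cont f, ?_⟩
  rw [hC.symm f hf _ h1, h2 f hf]
  refine integral_nonneg_of_ae ?_
  filter_upwards [mul_ae (AEEqFun.comp psi' psi'_cont f) (C.Γ f f),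
    AEEqFun.coeFn_comp _ psi'_cont f, hC.Γ_nonneg_ae hf] with x h3 h4 h5
  rw [h3, h4]
  exact mul_nonneg (psi'_nonneg _) h5

theorem nonpos_of_psi {f w : M →ₘ[m] ℝ} (hf : MemLp f 2 m) (hw2 : MemLp w 2 m)
    (hw : ∀ᵐ x ∂m, w x = psi (f x)) (h : I (f * w) ≤ 0) : ∀ᵐ x ∂m, f x ≤ 0 := by
  have h1 : 0 ≤ f * w := by
    rw [nonneg_iff_ae]
    filter_upwards [mul_ae f w, hw] with x h2 h3
    rw [h2, h3]
    rcases le_total (f x) 0 with h4 | h4
    · have : psi (f x) = 0 := le_antisymm ((psi_le _).trans (by rw [max_eq_right h4])) (psi_nonneg _)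
      rw [this, mul_zero]
    · exact mul_nonneg h4 (psi_nonneg _)
  have h2 := I_eq_zero_of_nonneg (mem_mul_22 hf hw2) h1 (le_antisymm h (I_nonneg h1))
  filter_upwards [eq_iff_ae.1 h2, mul_ae f w, hw, zero_ae (M := M) (m := m)] with x h3 h4 h5 h6
  rw [h4, h5, h6] at h3
  by_contra hcon
  push Not at hcon
  exact absurd h3 (mul_pos hcon (psi_pos hcon)).ne'

/-- `|G| ≤ k` from `|∫ G g| ≤ ∫ k |g|` on `W` -/
theorem rep_bound (hC : IsDir C) [SigmaFinite m] {G : M →ₘ[m] ℝ} (hG : MemLp G 2 m)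
    (hk : MemLp k 2 m) (h0 : 0 ≤ k) (h : ∀ g ∈ C.W, |I (G * g)| ≤ ∫ x, k x * |g x| ∂m) :
    ∀ᵐ x ∂m, |G x| ≤ k x := by
  have key : ∀ g : M →ₘ[m] ℝ, MemLp g 2 m → |I (G * g)| ≤ ∫ x, k x * |g x| ∂m := by
    intro g hg
    refine le_of_forall_pos_le_add fun ε hε => ?_
    set A : ℝ := √(I (G ^ 2)) + √(I (k ^ 2)) with hA
    have hA0 : 0 ≤ A := by positivity
    obtain ⟨g', hg', hd⟩ := hC.dense_L2 g hg ((ε / (A + 1)) ^ 2) (by positivity)
    have hg2 := hC.memLp g' hg'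
    have hdm : MemLp (g - g' : M →ₘ[m] ℝ) 2 m := mem_sub hg hg2
    have h1 := h g' hg'
    have h2 : I (G * g) = I (G * g') + I (G * (g - g')) := by
      rw [← I_add (mem_mul_22 hG hg2) (mem_mul_22 hG hdm), ← mul_add, add_sub_cancel]
    have h3 := I_abs_le hG hdm
    have h4 : √(I ((g - g') ^ 2)) ≤ ε / (A + 1) :=
      (Real.sqrt_le_sqrt hd.le).trans (by rw [Real.sqrt_sq (by positivity)])
    have h5 : ∫ x, k x * |g' x| ∂m ≤ (∫ x, k x * |g x| ∂m) +
        ∫ x, k x * |(g - g' : M →ₘ[m] ℝ) x| ∂m := by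
      rw [← integral_add (abs_int hk hg) (abs_int hk hdm)]
      refine integral_mono_ae (abs_int hk hg2) ((abs_int hk hg).add (abs_int hk hdm)) ?_
      filter_upwards [sub_ae g g', nonneg_iff_ae.1 h0] with x h6 h7
      show k x * |g' x| ≤ k x * |g x| + k x * |(g - g' : M →ₘ[m] ℝ) x|
      rw [h6, ← mul_add]
      refine mul_le_mul_of_nonneg_left ?_ h7
      have := abs_sub_abs_le_abs_sub (g' x) (g x)
      rw [abs_sub_comm (g' x)] at this
      linarith
    have h6 := int_abs_le hk hdm h0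
    have h7 := abs_add_le (I (G * g')) (I (G * (g - g')))
    rw [h2]
    have h8 : √(I (G ^ 2)) * √(I ((g - g') ^ 2)) + √(I (k ^ 2)) * √(I ((g - g') ^ 2)) ≤ ε := by
      rw [← add_mul, ← hA]
      calc A * √(I ((g - g') ^ 2)) ≤ A * (ε / (A + 1)) := by gcongr
        _ ≤ ε := by
          rw [mul_div_assoc', div_le_iff₀ (by positivity)]
          nlinarith
    linarith
  have hpos : ∀ s : ℝ, |s| = 1 → 0 ≤ k - s • G := by
    intro s hs
    refine nonneg_of_forall_L2 (mem_sub hk (mem_smul s hG)) fun ψ hψ0 hψ hψt => ?_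
    have h1 := key ψ hψ
    have h2 : ∫ x, k x * |ψ x| ∂m = I (k * ψ) := by
      refine integral_congr_ae ?_
      filter_upwards [nonneg_iff_ae.1 hψ0, mul_ae k ψ] with x h3 h4
      rw [h4, abs_of_nonneg h3]
    rw [sub_mul, I_sub (mem_mul_22 hk hψ) (mem_mul_22 (mem_smul s hG) hψ), smul_mul_assoc, I_smul]
    have h3 : s * I (G * ψ) ≤ |I (G * ψ)| := by
      calc s * I (G * ψ) ≤ |s * I (G * ψ)| := le_abs_self _
        _ = |I (G * ψ)| := by rw [abs_mul, hs, one_mul]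
    linarith
  filter_upwards [nonneg_iff_ae.1 (hpos 1 (by simp)), nonneg_iff_ae.1 (hpos (-1) (by simp)),
    sub_ae k ((1 : ℝ) • G), sub_ae k ((-1 : ℝ) • G), smul_ae G 1, smul_ae G (-1)]
    with x h1 h2 h3 h4 h5 h6
  rw [h3, h5] at h1
  rw [h4, h6] at h2
  rw [abs_le]
  constructor <;> linarith

end LS

/-- **Lewy–Stampacchia** for two obstacles: if `φ ≤ u`, `Δφ ≥ -K` and `Δu ≤ K` weakly, then there
is `η ∈ D(Δ)` between `φ` and `u` with `|Δη| ≤ K + 2(|φ| + |u|)`. -/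
theorem IsDir.lewy_stampacchia (hC : IsDir C) [SigmaFinite m] {φ u K : M →ₘ[m] ℝ}
    (hφ : φ ∈ C.W) (hu : u ∈ C.W) (hle : φ ≤ u) (hK : MemLp K 2 m) (hK0 : 0 ≤ K)
    (h1 : ∀ g ∈ C.W, 0 ≤ g → I (C.Γ φ g) ≤ I (K * g))
    (h2 : ∀ g ∈ C.W, 0 ≤ g → -I (C.Γ u g) ≤ I (K * g)) :
    ∃ η h : M →ₘ[m] ℝ, C.IsLap η h ∧ φ ≤ η ∧ η ≤ u ∧
      ∀ᵐ x ∂m, |h x| ≤ K x + 2 * (|φ x| + |u x|) := by
  have hφ2 := hC.memLp φ hφ
  have hu2 := hC.memLp u hu
  set ab : (M →ₘ[m] ℝ) → (M →ₘ[m] ℝ) := fun f => AEEqFun.comp (fun t : ℝ => |t|) continuous_abs f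
    with hab
  have hab_ae : ∀ f : M →ₘ[m] ℝ, ∀ᵐ x ∂m, ab f x = |f x| := fun f =>
    AEEqFun.coeFn_comp _ continuous_abs f
  have hab2 : ∀ f : M →ₘ[m] ℝ, MemLp f 2 m → MemLp (ab f) 2 m := fun f hf =>
    (memLp_congr_ae (AEEqFun.coeFn_comp _ continuous_abs f)).2 hf.abs
  set k : M →ₘ[m] ℝ := K + ab φ + ab u with hkd
  have hk_ae : ∀ᵐ x ∂m, k x = K x + |φ x| + |u x| := by
    filter_upwards [add_ae (K + ab φ) (ab u), add_ae K (ab φ), hab_ae φ, hab_ae u]
      with x a1 a2 a3 a4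
    rw [a1, a2, a3, a4]
  have hk : MemLp k 2 m := mem_add (mem_add hK (hab2 φ hφ2)) (hab2 u hu2)
  have hk0 : 0 ≤ k := by
    rw [nonneg_iff_ae]
    filter_upwards [hk_ae, nonneg_iff_ae.1 hK0] with x a1 a2
    rw [a1]; positivity
  obtain ⟨η, hη, hmin⟩ := LS.exists_min hC hk hk0 hφ2 hle
  have hη2 := hC.memLp η hη
  have hvar := fun g (hg : g ∈ C.W) => LS.first_var hC hk hk0 hφ2 hle hη hmin hg
  obtain ⟨G, hG, hrep⟩ := hC.exists_rep (ℓ := LS.ipW C η) (B := √(I (k ^ 2)))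
    (fun f hf g hg => LS.ipW_add_right hC hη hf hg)
    (fun c f hf => LS.ipW_smul_right hC c hη hf)
    (fun f hf => (hvar f hf).trans (LS.int_abs_le hk (hC.memLp f hf) hk0))
  have hGk : ∀ᵐ x ∂m, |G x| ≤ k x :=
    LS.rep_bound hC hG hk hk0 fun g hg => by rw [← hrep g hg]; exact hvar g hg
  -- `η ≤ u`
  have hηu : ∀ᵐ x ∂m, η x ≤ u x := by
    have hd : η - u ∈ C.W := hC.sub_mem hη hu
    obtain ⟨w, hw, hwae, hw1⟩ := LS.exists_psi hC hd
    have hw2 := hC.memLp w hw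
    have hw0 : 0 ≤ w := by
      rw [nonneg_iff_ae]
      filter_upwards [hwae] with x a1
      rw [a1]; exact LS.psi_nonneg _
    have a1 := LS.var_down (s := -1) hC hη hmin hk hφ2 hle hw (fun t ht0 ht1 => by
      filter_upwards [hwae, sub_ae η u, le_iff_ae.1 hle] with x b1 b2 b3
      have b4 : 0 ≤ LS.psi ((η - u : M →ₘ[m] ℝ) x) := LS.psi_nonneg _
      have b5 := LS.psi_le ((η - u : M →ₘ[m] ℝ) x)
      rw [show η x + t * (-1 * w x) = η x - t * w x by ring, b1]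
      refine LS.pd_down b3 (mul_nonneg ht0 b4) ?_
      rw [← b2]
      refine le_trans ?_ b5
      calc t * LS.psi ((η - u : M →ₘ[m] ℝ) x) ≤ 1 * LS.psi ((η - u : M →ₘ[m] ℝ) x) := by gcongr
        _ = _ := one_mul _)
    have a2 := h2 w hw hw0
    have a3 : -I (k * w) ≤ LS.ipW C u w := by
      unfold LS.ipW
      have b1 : I (K * w) - I (u * w) ≤ I (k * w) := by
        rw [← I_sub (mem_mul_22 hK hw2) (mem_mul_22 hu2 hw2)]
        refine I_mono (mem_sub (mem_mul_22 hK hw2) (mem_mul_22 hu2 hw2)) (mem_mul_22 hk hw2) ?_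
        rw [le_iff_ae]
        filter_upwards [hk_ae, sub_ae (K * w) (u * w), mul_ae K w, mul_ae u w, mul_ae k w,
          nonneg_iff_ae.1 hw0] with x c1 c2 c3 c4 c5 c6
        rw [c2, c3, c4, c5, c1, ← sub_mul]
        refine mul_le_mul_of_nonneg_right ?_ c6
        linarith [neg_abs_le (u x), abs_nonneg (φ x)]
      linarith
    have a4 : LS.ipW C (η - u) w ≤ 0 := by
      rw [LS.ipW_sub_left hC hη hu hw]; linarith
    have a5 : I ((η - u) * w) ≤ 0 := by
      unfold LS.ipW at a4; linarith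
    filter_upwards [LS.nonpos_of_psi (hC.memLp _ hd) hw2 hwae a5, sub_ae η u] with x b1 b2
    rw [b2] at b1; linarith
  -- `φ ≤ η`
  have hφη : ∀ᵐ x ∂m, φ x ≤ η x := by
    have hd : φ - η ∈ C.W := hC.sub_mem hφ hη
    obtain ⟨w, hw, hwae, hw1⟩ := LS.exists_psi hC hd
    have hw2 := hC.memLp w hw
    have hw0 : 0 ≤ w := by
      rw [nonneg_iff_ae]
      filter_upwards [hwae] with x a1
      rw [a1]; exact LS.psi_nonneg _
    have a1 := LS.var_down (s := 1) hC hη hmin hk hφ2 hle hw (fun t ht0 ht1 => by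
      filter_upwards [hwae, sub_ae φ η, le_iff_ae.1 hle] with x b1 b2 b3
      have b4 : 0 ≤ LS.psi ((φ - η : M →ₘ[m] ℝ) x) := LS.psi_nonneg _
      have b5 := LS.psi_le ((φ - η : M →ₘ[m] ℝ) x)
      rw [one_mul, b1]
      refine LS.pd_up b3 (mul_nonneg ht0 b4) ?_
      rw [← b2]
      refine le_trans ?_ b5
      calc t * LS.psi ((φ - η : M →ₘ[m] ℝ) x) ≤ 1 * LS.psi ((φ - η : M →ₘ[m] ℝ) x) := by gcongr
        _ = _ := one_mul _)
    have a2 := h1 w hw hw0
    have a3 : LS.ipW C φ w ≤ I (k * w) := by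
      unfold LS.ipW
      have b1 : I (K * w) + I (φ * w) ≤ I (k * w) := by
        rw [← I_add (mem_mul_22 hK hw2) (mem_mul_22 hφ2 hw2)]
        refine I_mono (mem_add (mem_mul_22 hK hw2) (mem_mul_22 hφ2 hw2)) (mem_mul_22 hk hw2) ?_
        rw [le_iff_ae]
        filter_upwards [hk_ae, add_ae (K * w) (φ * w), mul_ae K w, mul_ae φ w, mul_ae k w,
          nonneg_iff_ae.1 hw0] with x c1 c2 c3 c4 c5 c6
        rw [c2, c3, c4, c5, c1, ← add_mul]
        refine mul_le_mul_of_nonneg_right ?_ c6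
        linarith [le_abs_self (φ x), abs_nonneg (u x)]
      linarith
    have a4 : LS.ipW C (φ - η) w ≤ 0 := by
      rw [LS.ipW_sub_left hC hφ hη hw]; linarith
    have a5 : I ((φ - η) * w) ≤ 0 := by
      unfold LS.ipW at a4; linarith
    filter_upwards [LS.nonpos_of_psi (hC.memLp _ hd) hw2 hwae a5, sub_ae φ η] with x b1 b2
    rw [b2] at b1; linarith
  refine ⟨η, η - G, ⟨hη, mem_sub hη2 hG, fun g hg => ?_⟩, le_iff_ae.2 hφη, le_iff_ae.2 hηu, ?_⟩
  · have a1 := hrep g hg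
    have a2 : I ((η - G) * g) = I (η * g) - I (G * g) := by
      rw [sub_mul, I_sub (mem_mul_22 hη2 (hC.memLp g hg)) (mem_mul_22 hG (hC.memLp g hg))]
    show I (C.Γ η g) = -I ((η - G) * g)
    unfold LS.ipW at a1
    linarith
  · filter_upwards [hηu, hφη, hGk, hk_ae, sub_ae η G] with x a1 a2 a3 a4 a5
    rw [a5]
    have b1 : |η x| ≤ |φ x| + |u x| := by
      rw [abs_le]
      constructor
      · linarith [neg_abs_le (φ x), abs_nonneg (u x)]
      · linarith [le_abs_self (u x), abs_nonneg (φ x)]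
    have b2 := abs_sub (η x) (G x)
    linarith

end Vale.Agent.P233
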